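import Vale.Agent.P315.H527.Params

/-!
# The parameters for long inputs

Everything that holds as soon as the number `g` of levels before rounding is large.
-/

set_option autoImplicit false

namespace Vale.Agent.P315.H527

open Vale.Agent.P315.H809

theorem exists_pow_le_two_pow (a b : ℕ) : ∃ t₀ : ℕ, ∀ t, t₀ ≤ t → b * (t + 1) ^ a ≤ 2 ^ t := by
  have h := tendsto_pow_const_div_const_pow_of_one_lt a (r := (2 : ℝ)) (by norm_num)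
  have hb : (0 : ℝ) < 1 / (2 * (b + 1)) := by positivity
  have h2 := (h.eventually (gt_mem_nhds hb))
  rw [Filter.eventually_atTop] at h2
  obtain ⟨t₀, ht⟩ := h2
  refine ⟨t₀, fun t h3 => ?_⟩
  have h4 := ht (t + 1) (by omega)
  rw [div_lt_div_iff₀ (by positivity) (by positivity)] at h4
  have h5 : (2 * (b + 1) : ℝ) * ((t + 1 : ℕ) : ℝ) ^ a ≤ 2 * 2 ^ t := by
    rw [pow_succ] at h4
    linarith
  have h6 : ((b * (t + 1) ^ a : ℕ) : ℝ) ≤ ((2 ^ t : ℕ) : ℝ) := by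
    push_cast at h5 ⊢
    have h7 : (0 : ℝ) ≤ ((t : ℝ) + 1) ^ a := by positivity
    nlinarith
  exact_mod_cast h6

theorem exists_log_le (P : ℕ) : ∃ x₀ : ℕ, ∀ x, x₀ ≤ x → P * (Nat.log 2 x + 1) ≤ x := by
  obtain ⟨t₀, ht⟩ := exists_pow_le_two_pow 1 P
  refine ⟨2 ^ t₀, fun x hx => ?_⟩
  have hx0 : x ≠ 0 := by
    have : 0 < 2 ^ t₀ := by positivity
    omega
  have h1 : t₀ ≤ Nat.log 2 x := Nat.le_log_of_pow_le (by norm_num) hx
  have h2 := ht _ h1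
  rw [pow_one] at h2
  exact h2.trans (Nat.pow_log_le_self 2 hx0)

namespace Cst

variable {c : Cst}

theorem exists_L (c : Cst) (n₀ : ℕ) : ∃ g₁ : ℕ, ∀ g, g₁ ≤ g → n₀ ≤ c.L g :=
  ⟨2 * n₀ + 46, fun g hg => by have := g_le (c := c) g; omega⟩

theorem exists_powS (c : Cst) (k : ℕ) : ∃ g₁ : ℕ, ∀ g, g₁ ≤ g → k * 2 ^ c.S g ≤ c.L g := by
  obtain ⟨x₀, hx⟩ := exists_log_le (24 * k)
  obtain ⟨g₁, hg₁⟩ := exists_L c 24
  refine ⟨max x₀ g₁, fun g hg => ?_⟩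
  have h1 := hx (g + 2) (by omega)
  have h2 := two_pow_S_le' (c := c) g
  have h3 := g_le (c := c) g
  have h4 := hg₁ g (by omega)
  have h5 : k * 2 ^ c.S g ≤ k * (6 * (Nat.log 2 (g + 2) + 1)) := Nat.mul_le_mul_left _ h2
  have h6 : 4 * (k * (6 * (Nat.log 2 (g + 2) + 1))) = 24 * k * (Nat.log 2 (g + 2) + 1) := by ring
  omega

/-- the net of the machines divides the mesh -/
theorem exists_dvd_mc (c : Cst) (k : ℕ) :
    ∃ g₁ : ℕ, ∀ g, g₁ ≤ g → 2 ^ (k * 2 ^ c.S g) ∣ c.mc g := by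
  obtain ⟨g₁, h⟩ := exists_powS c (k * c.wm)
  refine ⟨g₁, fun g hg => ?_⟩
  unfold mc
  apply Nat.pow_dvd_pow
  rw [Nat.le_div_iff_mul_le c.wm_pos]
  have := h g hg
  calc k * 2 ^ c.S g * c.wm = k * c.wm * 2 ^ c.S g := by ring
    _ ≤ c.L g := this

theorem exists_two_dvd_mc (c : Cst) : ∃ g₁ : ℕ, ∀ g, g₁ ≤ g → 2 ∣ c.mc g := by
  obtain ⟨g₁, h⟩ := exists_L c c.wm
  refine ⟨g₁, fun g hg => ?_⟩
  unfold mc
  apply dvd_pow_self
  have := h g hg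
  have h2 : 0 < c.L g / c.wm := Nat.div_pos this c.wm_pos
  omega

/-- the mesh beats every power of the number of levels -/
theorem exists_pow_le_mc (c : Cst) (a b : ℕ) :
    ∃ g₁ : ℕ, ∀ g, g₁ ≤ g → b * (c.L g + 2) ^ a ≤ c.mc g := by
  obtain ⟨t₀, ht⟩ := exists_pow_le_two_pow a (b * (c.wm + 2) ^ a)
  obtain ⟨g₁, h⟩ := exists_L c (c.wm * t₀)
  refine ⟨g₁, fun g hg => ?_⟩
  have hh : 0 < c.wm := c.wm_pos
  have h1 : t₀ ≤ c.L g / c.wm := by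
    rw [Nat.le_div_iff_mul_le hh, Nat.mul_comm]
    exact h g hg
  have h2 := ht _ h1
  have h3 : c.L g + 2 ≤ (c.wm + 2) * (c.L g / c.wm + 1) := by
    have h4 := Nat.lt_mul_div_succ (c.L g) hh
    have h5 : (c.wm + 2) * (c.L g / c.wm + 1) =
        c.wm * (c.L g / c.wm + 1) + 2 * (c.L g / c.wm + 1) := by ring
    omega
  calc b * (c.L g + 2) ^ a ≤ b * ((c.wm + 2) * (c.L g / c.wm + 1)) ^ a :=
        Nat.mul_le_mul_left _ (Nat.pow_le_pow_left h3 _)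
    _ = b * (c.wm + 2) ^ a * (c.L g / c.wm + 1) ^ a := by rw [mul_pow]; ring
    _ ≤ c.mc g := h2

/-- polynomials in `2 ^ 2 ^ S` are at most `K` -/
theorem exists_powpowS_le_K (c : Cst) (k : ℕ) :
    ∃ g₁ : ℕ, ∀ g, g₁ ≤ g → 2 ^ (k * 2 ^ c.S g) ≤ c.K g := by
  obtain ⟨g₁, h⟩ := exists_powS c k
  exact ⟨g₁, fun g hg => (Nat.pow_le_pow_right (by norm_num) (h g hg)).trans (two_pow_L_le g)⟩

theorem exists_Cn_le_K (c : Cst) : ∃ g₁ : ℕ, ∀ g, g₁ ≤ g → c.Cn g ≤ c.K g :=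
  exists_powpowS_le_K c c.ms

theorem exists_e_le_K (c : Cst) : ∃ g₁ : ℕ, ∀ g, g₁ ≤ g → c.e g ≤ c.K g := by
  obtain ⟨g₁, h⟩ := exists_powS c c.mt
  obtain ⟨g₂, h'⟩ := exists_L c c.kc
  refine ⟨max g₁ g₂, fun g hg => ?_⟩
  refine le_trans ?_ (two_pow_L_le g)
  exact Nat.pow_le_pow_right (by norm_num) (max_le (h' g (by omega)) (h g (by omega)))

/-- a lower bound for the modulus of the seeds -/
theorem two_pow_kc_dvd_e (c : Cst) (g : ℕ) : 2 ^ c.kc ∣ c.e g :=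
  Nat.pow_dvd_pow 2 (le_max_left _ _)

theorem two_pow_mt_dvd_e (c : Cst) (g : ℕ) : 2 ^ (c.mt * 2 ^ c.S g) ∣ c.e g :=
  Nat.pow_dvd_pow 2 (le_max_right _ _)

/-- the number of levels before rounding tends to infinity with `n` -/
theorem exists_lev0 {M : ℕ} (hM : 2 ≤ M) {q : ℕ} (hq : 1 ≤ q) (g₁ : ℕ) :
    ∃ n₁ : ℕ, ∀ n, n₁ ≤ n → g₁ ≤ lev0 M q n := by
  refine ⟨M ^ (g₁ * q), fun n hn => ?_⟩
  unfold lev0
  rw [Nat.le_div_iff_mul_le hq]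
  exact Nat.le_log_of_pow_le (by omega) (by omega)

/-- All hypotheses on the parameters in the query theorem (`B = 2 ^ m`), for a mesh net
`2 ^ (k 2 ^ S)`, and the bound for the loss. -/
theorem exists_hyps (c : Cst) {m : ℕ} (hBm : c.B = 2 ^ m) (k a₀ n₀ : ℕ) :
    ∃ g₁ : ℕ, ∀ g, g₁ ≤ g → ∀ n,
      n₀ ≤ c.L g ∧ 2 ^ c.S g ∣ c.L g ∧ (c.L g + 2) ^ 3 ≤ (2 ^ m) ^ 2 ^ c.S g ∧
      2 ^ c.S g ≤ 6 * (Nat.log 2 (c.L g + 2) + 2) ∧ 0 < c.μ n g ∧ c.μ n g ∣ c.ℓ n g ∧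
      a₀ * (c.L g + 2) ^ a₀ * c.μ n g ≤ c.ℓ n g ∧ 0 < c.ℓ n g ∧
      2 ^ (k * 2 ^ c.S g) ∣ c.ℓ n g / c.μ n g ∧ 2 ∣ c.mc g ∧
      (∀ η : ℝ, η * c.ℓ n g ≤ 12 * c.μ n g → a₀ * ((c.L g : ℝ) + 2) ^ a₀ * η ≤ 1) := by
  obtain ⟨g₁, h1⟩ := exists_L c (n₀ + 1)
  obtain ⟨g₂, h2⟩ := exists_pow_le_mc c a₀ (12 * a₀)
  obtain ⟨g₃, h3⟩ := exists_dvd_mc c k
  obtain ⟨g₄, h4⟩ := exists_two_dvd_mc c
  refine ⟨max (max g₁ g₂) (max g₃ g₄), fun g hg n => ?_⟩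
  have i1 := h1 g (by omega)
  have i2 := h2 g (by omega)
  refine ⟨by omega, two_pow_S_dvd g, hBm ▸ L_cube g, two_pow_S_le g (by omega), μ_pos n g,
    μ_dvd_ℓ n g, ?_, ℓ_pos n g, ?_, h4 g (by omega), fun η hη => ?_⟩
  · unfold ℓ
    apply Nat.mul_le_mul_right
    refine le_trans ?_ i2
    apply Nat.mul_le_mul_right
    omega
  · rw [ℓ_div_μ]
    exact h3 g (by omega)
  · have hμ : (0 : ℝ) < c.μ n g := by exact_mod_cast μ_pos n g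
    have hmc : (0 : ℝ) < c.mc g := by exact_mod_cast mc_pos g
    have h5 : η * c.mc g ≤ 12 := by
      have h6 : (c.ℓ n g : ℝ) = c.mc g * c.μ n g := by unfold ℓ; push_cast; ring
      rw [h6, ← mul_assoc] at hη
      exact le_of_mul_le_mul_right hη hμ
    have h7 : (12 : ℝ) * (a₀ * ((c.L g : ℝ) + 2) ^ a₀) ≤ c.mc g := by
      have : ((12 * a₀ * (c.L g + 2) ^ a₀ : ℕ) : ℝ) ≤ c.mc g := by exact_mod_cast i2
      push_cast at this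
      linarith
    have h8 : (0 : ℝ) ≤ a₀ * ((c.L g : ℝ) + 2) ^ a₀ := by positivity
    rcases le_or_gt η 0 with h0 | h0
    · have := mul_nonpos_of_nonneg_of_nonpos h8 h0
      linarith
    · have h9 : 12 * (a₀ * ((c.L g : ℝ) + 2) ^ a₀ * η) ≤ 12 := by
        calc 12 * (a₀ * ((c.L g : ℝ) + 2) ^ a₀ * η) =
              (12 * (a₀ * ((c.L g : ℝ) + 2) ^ a₀)) * η := by ring
          _ ≤ c.mc g * η := mul_le_mul_of_nonneg_right h7 h0.le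
          _ ≤ 12 := by linarith
      linarith

end Cst

end Vale.Agent.P315.H527
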