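import Vale.Agent.Lib.PolyTime.NatArith2
import Vale.Agent.Lib.PolyTime.Unary
import Vale.Agent.P315.H809.Exp

/-!
# The parameters of the one pass algorithm are computable in polynomial time

Closure of `PT` under `Nat.clog B`, `Nat.log M` (fixed bases) and the functions `lev0`, `scal`,
`lev` of `H809/Exp.lean`; the number of rows `M ^ lev`.
-/

set_option autoImplicit false

namespace Vale.Agent.P315.H527

open Vale.Agent.Lib.PolyTime Vale.Agent.P315.H809

variable {A : Set Word} {α : Type*} [Enc α]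

/-! ### Logarithms to a fixed base -/

/-- One step: multiply by the base as long as the number is too small. -/
def cst (B n : ℕ) (p : ℕ × ℕ) : ℕ × ℕ := if p.1 < n then (B * p.1, p.2 + 1) else p

theorem cst_iterate {B : ℕ} (hB : 2 ≤ B) (n k : ℕ) :
    (cst B n)^[k] (1, 0) = (B ^ min k (Nat.clog B n), min k (Nat.clog B n)) := by
  induction k with
  | zero => simp
  | succ k ih =>
    rw [Function.iterate_succ_apply', ih]
    unfold cst
    by_cases h : k < Nat.clog B n
    · have h1 : min k (Nat.clog B n) = k := by omega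
      have h2 : min (k + 1) (Nat.clog B n) = k + 1 := by omega
      have h3 : B ^ k < n := (Nat.lt_clog_iff_pow_lt (by omega)).1 h
      rw [h1, h2, if_pos h3, pow_succ, Nat.mul_comm]
    · have h1 : min k (Nat.clog B n) = Nat.clog B n := by omega
      have h2 : min (k + 1) (Nat.clog B n) = Nat.clog B n := by omega
      have h3 : ¬ B ^ Nat.clog B n < n := by
        have := Nat.le_pow_clog (b := B) (by omega) n
        omega
      rw [h1, h2, if_neg h3]

theorem clog_le_size (B n : ℕ) : Nat.clog B n ≤ Nat.size n := by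
  rcases Nat.lt_or_ge B 2 with h | h
  · rw [Nat.clog_of_left_le_one (by omega)]; omega
  · apply Nat.clog_le_of_le_pow
    calc n ≤ 2 ^ Nat.size n := (Nat.lt_size_self n).le
      _ ≤ B ^ Nat.size n := Nat.pow_le_pow_left h _

theorem pow_clog_le {B : ℕ} (hB : 2 ≤ B) (n : ℕ) : B ^ Nat.clog B n ≤ B * n + 1 := by
  rcases Nat.lt_or_ge 1 n with h | h
  · have h1 := Nat.pow_pred_clog_lt_self (b := B) (by omega) h
    have h2 : 0 < Nat.clog B n := Nat.clog_pos (by omega) h
    obtain ⟨k, hk⟩ : ∃ k, Nat.clog B n = k + 1 := ⟨_, (Nat.succ_pred_eq_of_pos h2).symm⟩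
    rw [hk] at h1 ⊢
    rw [pow_succ, Nat.mul_comm]
    have := Nat.mul_le_mul_left B h1.le
    simpa using this.trans (Nat.le_succ _)
  · rw [Nat.clog_of_right_le_one h]; simp

theorem esize_nat_eq (n : ℕ) : esize n = Nat.size n := by
  show n.bits.length = Nat.size n
  exact Nat.size_eq_bits_len n

theorem PBd_clog (B : ℕ) {f : α → ℕ} (hf : PT A f) : PBd (fun a => Nat.clog B (f a)) :=
  hf.pbd.mono fun a => by
    rw [esize_nat_eq]
    exact clog_le_size B (f a)

theorem PT_clog (B : ℕ) {f : α → ℕ} (hf : PT A f) : PT A (fun a => Nat.clog B (f a)) := by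
  rcases Nat.lt_or_ge B 2 with hB | hB
  · exact (PT.const 0).congr fun a => (Nat.clog_of_left_le_one (by omega) _).symm
  have hstep : PT A (fun p : α × ℕ × ℕ => cst B (f p.1) p.2) := by
    unfold cst
    refine PT.ite ?_ ?_ PT.snd'
    · exact PT.lt PT.snd'.fst (hf.comp PT.fst')
    · exact (PT.mul (PT.const B) PT.snd'.fst).pair (PT.add PT.snd'.snd (PT.const 1))
  have hb : PBd (fun a => 2 * esize (B * f a + 1) + esize (f a) + 1) := by
    have h1 := (PT.add (PT.mul (PT.const B) hf) (PT.const 1)).pbd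
    have h2 := hf.pbd
    exact (((PBd.const 2).mul h1).add h2).add (PBd.const 1)
  have h := PT.iterate_esize' (A := A) (u := f) (init := fun _ => ((1, 0) : ℕ × ℕ))
    (step := fun a p => cst B (f a) p) hf (PT.const (1, 0)) hstep hb (fun a k _ => ?_)
  · refine h.snd.congr fun a => ?_
    rw [cst_iterate hB]
    have := clog_le_size B (f a)
    rw [esize_nat_eq]
    simp only
    omega
  · rw [cst_iterate hB, esize_pair]
    have h1 : esize (B ^ min k (Nat.clog B (f a))) ≤ esize (B * f a + 1) :=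
      esize_nat_mono ((Nat.pow_le_pow_right (by omega) (min_le_right _ _)).trans
        (pow_clog_le hB _))
    have h2 : esize (min k (Nat.clog B (f a))) ≤ esize (f a) := by
      refine (esize_nat_le_self _).trans ?_
      have := clog_le_size B (f a)
      rw [esize_nat_eq]
      omega
    omega

theorem log_eq_clog {M : ℕ} (hM : 2 ≤ M) (n : ℕ) : Nat.log M n = Nat.clog M (n + 1) - 1 := by
  rcases Nat.eq_zero_or_pos n with h | h
  · subst h; simp
  · have h1 : Nat.clog M (n + 1) = Nat.log M n + 1 := by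
      apply le_antisymm
      · apply Nat.clog_le_of_le_pow
        exact Nat.lt_pow_succ_log_self (by omega) n
      · rw [Nat.succ_le_iff, Nat.lt_clog_iff_pow_lt (by omega)]
        have := Nat.pow_log_le_self M (x := n) (by omega)
        omega
    omega

theorem PT_log {M : ℕ} (hM : 2 ≤ M) {f : α → ℕ} (hf : PT A f) :
    PT A (fun a => Nat.log M (f a)) :=
  (PT.sub (PT_clog M (PT.add hf (PT.const 1))) (PT.const 1)).congr fun a =>
    (log_eq_clog hM (f a)).symm

theorem PBd_log (M : ℕ) {f : α → ℕ} (hf : PT A f) : PBd (fun a => Nat.log M (f a)) :=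
  hf.pbd.mono fun a => by
    rw [esize_nat_eq]
    exact (Nat.log_le_clog M (f a)).trans (clog_le_size M (f a))

/-! ### The number of levels -/

theorem PT_lev0 {M : ℕ} (hM : 2 ≤ M) (q : ℕ) {f : α → ℕ} (hf : PT A f) :
    PT A (fun a => lev0 M q (f a)) :=
  PT.div (PT_log hM (PT.add hf (PT.const 1))) (PT.const q)

theorem PBd_lev0 (M q : ℕ) {f : α → ℕ} (hf : PT A f) : PBd (fun a => lev0 M q (f a)) :=
  (PBd_log M (PT.add hf (PT.const 1))).mono fun _ => Nat.div_le_self _ _

theorem PT_scal (B : ℕ) {f : α → ℕ} (hf : PT A f) : PT A (fun a => scal B (f a)) :=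
  PT_clog 2 (PT_clog B (PT.powConst (PT.add hf (PT.const 2)) 3))

theorem PBd_scal (B : ℕ) {f : α → ℕ} (hf : PT A f) : PBd (fun a => scal B (f a)) :=
  PBd_clog 2 (PT_clog B (PT.powConst (PT.add hf (PT.const 2)) 3))

theorem PT_scalN (B : ℕ) {M : ℕ} (hM : 2 ≤ M) (q : ℕ) {f : α → ℕ} (hf : PT A f) :
    PT A (fun a => scalN B M q (f a)) :=
  PT_scal B (PT_lev0 hM q hf)

theorem PBd_scalN (B : ℕ) {M : ℕ} (hM : 2 ≤ M) (q : ℕ) {f : α → ℕ} (hf : PT A f) :
    PBd (fun a => scalN B M q (f a)) :=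
  PBd_scal B (PT_lev0 hM q hf)

theorem PT_pow_scalN (B : ℕ) {M : ℕ} (hM : 2 ≤ M) (q : ℕ) {f : α → ℕ} (hf : PT A f) :
    PT A (fun a => 2 ^ scalN B M q (f a)) :=
  PT.pow (PT.const 2) (PT_scalN B hM q hf) (PBd_scalN B hM q hf)

theorem PT_lev (B : ℕ) {M : ℕ} (hM : 2 ≤ M) (q : ℕ) {f : α → ℕ} (hf : PT A f) :
    PT A (fun a => lev B M q (f a)) :=
  PT.mul (PT_pow_scalN B hM q hf) (PT.div (PT_lev0 hM q hf) (PT_pow_scalN B hM q hf))

theorem PBd_lev (B M q : ℕ) {f : α → ℕ} (hf : PT A f) : PBd (fun a => lev B M q (f a)) :=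
  (PBd_lev0 M q hf).mono fun _ => lev_le_lev0 _ _ _ _

/-- The number of rows. -/
theorem PT_rows (B : ℕ) {M : ℕ} (hM : 2 ≤ M) (q : ℕ) {f : α → ℕ} (hf : PT A f) :
    PT A (fun a => M ^ lev B M q (f a)) :=
  PT.pow (PT.const M) (PT_lev B hM q hf) (PBd_lev B M q hf)

/-- `2 ^ (lev / h)`: the saving. -/
theorem PT_gain (B : ℕ) {M : ℕ} (hM : 2 ≤ M) (q h : ℕ) {f : α → ℕ} (hf : PT A f) :
    PT A (fun a => 2 ^ (lev B M q (f a) / h)) :=
  PT.pow (PT.const 2) (PT.div (PT_lev B hM q hf) (PT.const h))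
    ((PBd_lev B M q hf).mono fun _ => Nat.div_le_self _ _)

end Vale.Agent.P315.H527
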