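import Vale.Agent.P315.H527.Params

/-!
# The parameters of the one pass algorithm are computable in polynomial time

`g` = the number of levels before rounding (with `PBd g`: it is given in unary, for example as a
minimum with the length of the feed), `f` = the length of the input.
-/

set_option autoImplicit false

namespace Vale.Agent.P315.H527

open Vale.Agent.Lib.PolyTime Vale.Agent.P315.H809

namespace Cst

variable {A : Set Word} {α : Type*} [Enc α] {f g : α → ℕ} (c : Cst)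

theorem PT_S (hg : PT A g) : PT A (fun a => c.S (g a)) := PT_scal c.B hg

theorem PBd_S (hg : PT A g) : PBd (fun a => c.S (g a)) := PBd_scal c.B hg

theorem PT_powS (hg : PT A g) : PT A (fun a => 2 ^ c.S (g a)) :=
  PT.pow (PT.const 2) (c.PT_S hg) (c.PBd_S hg)

theorem PBd_powS (hg : PT A g) : PBd (fun a => 2 ^ c.S (g a)) := by
  refine ((PBd.const 2).mul (PBd_clog c.B (PT.powConst (PT.add hg (PT.const 2)) 3))).mono
    fun a => ?_
  have h1 : 1 ≤ Nat.clog c.B ((g a + 2) ^ 3) := by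
    apply Nat.clog_pos (by have := c.hB; omega)
    calc 2 ≤ g a + 2 := by omega
      _ ≤ (g a + 2) ^ 3 := Nat.le_self_pow (by norm_num) _
  exact two_pow_clog_le _ h1

theorem PT_L (hg : PT A g) : PT A (fun a => c.L (g a)) :=
  PT.mul (c.PT_powS hg) (PT.div hg (c.PT_powS hg))

theorem PBd_L (hb : PBd g) : PBd (fun a => c.L (g a)) := hb.mono fun _ => L_le _

theorem PT_K (hg : PT A g) (hb : PBd g) : PT A (fun a => c.K (g a)) :=
  PT.pow (PT.const c.M) (c.PT_L hg) (c.PBd_L hb)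

theorem PT_mc (hg : PT A g) (hb : PBd g) : PT A (fun a => c.mc (g a)) :=
  PT.pow (PT.const 2) (PT.div (c.PT_L hg) (PT.const c.wm))
    ((c.PBd_L hb).mono fun _ => Nat.div_le_self _ _)

theorem PT_μ (hf : PT A f) (hg : PT A g) (hb : PBd g) : PT A (fun a => c.μ (f a) (g a)) :=
  PT.add (PT.div hf (PT.mul (c.PT_K hg hb) (c.PT_mc hg hb))) (PT.const 1)

theorem PT_ℓ (hf : PT A f) (hg : PT A g) (hb : PBd g) : PT A (fun a => c.ℓ (f a) (g a)) :=
  PT.mul (c.PT_mc hg hb) (c.PT_μ hf hg hb)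

theorem PT_D (hg : PT A g) (hb : PBd g) : PT A (fun a => c.D (g a)) :=
  PT.mul (PT.const 4) (c.PT_K hg hb)

/-- The saving. -/
theorem PT_gain' (hg : PT A g) (hb : PBd g) : PT A (fun a => 2 ^ (c.L (g a) / c.h)) :=
  PT.pow (PT.const 2) (PT.div (c.PT_L hg) (PT.const c.h))
    ((c.PBd_L hb).mono fun _ => Nat.div_le_self _ _)

theorem PT_Q (hg : PT A g) (hb : PBd g) : PT A (fun a => c.Q (g a)) :=
  PT.mul (PT.const c.C0) (PT.add (PT.div (PT.powConst (c.PT_K hg hb) 2)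
    (c.PT_gain' hg hb)) (PT.const 1))

/-- powers `2 ^ (k * 2 ^ S)` -/
theorem PT_powpowS (k : ℕ) (hg : PT A g) : PT A (fun a => 2 ^ (k * 2 ^ c.S (g a))) :=
  PT.pow (PT.const 2) (PT.mul (PT.const k) (c.PT_powS hg)) ((PBd.const k).mul (c.PBd_powS hg))

theorem PT_Cn (hg : PT A g) : PT A (fun a => c.Cn (g a)) := c.PT_powpowS c.ms hg

theorem PT_Nu (hg : PT A g) : PT A (fun a => c.Nu (g a)) :=
  PT.add (PT.mul (PT.add (c.PT_L hg) (PT.const 1)) (PT.const c.M))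
    (PT.mul (PT.mul (PT.add (c.PT_L hg) (PT.const 1)) (PT.add (c.PT_S hg) (PT.const 1)))
      (c.PT_Cn hg))

theorem PT_pow16S (hg : PT A g) : PT A (fun a => 16 ^ c.S (g a)) :=
  PT.pow (PT.const 16) (c.PT_S hg) (c.PBd_S hg)

theorem PT_powpowS' (k d : ℕ) (hg : PT A g) : PT A (fun a => 2 ^ (k * 2 ^ c.S (g a) + d)) :=
  PT.pow (PT.const 2) (PT.add (PT.mul (PT.const k) (c.PT_powS hg)) (PT.const d))
    (((PBd.const k).mul (c.PBd_powS hg)).add (PBd.const d))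

theorem PT_pad (hg : PT A g) (hb : PBd g) : PT A (fun a => c.pad (g a)) :=
  PT.add (PT.add (PT.add (PT.add
    (PT.mul (PT.mul (PT.const 8) (c.PT_K hg hb)) (PT.add (c.PT_mc hg hb) (PT.const 1)))
    (PT.mul (PT.const (2 ^ c.kc)) (c.PT_L hg)))
    (PT.mul (PT.const 2) (PT.add (PT.add (c.PT_L hg) (c.PT_powS hg))
      (PT.mul (c.PT_pow16S hg) (PT.const (c.mm ^ 2))))))
    (PT.const 20)) (c.PT_powpowS' c.mp 12 hg)

theorem PT_N (hg : PT A g) (hb : PBd g) : PT A (fun a => c.N (g a)) :=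
  PT.add (c.PT_Nu hg) (c.PT_pad hg hb)

theorem two_pow_max (a b : ℕ) : 2 ^ max a b = if a ≤ b then 2 ^ b else 2 ^ a := by
  split_ifs with h
  · rw [max_eq_right h]
  · rw [max_eq_left (by omega)]

theorem PT_e (hg : PT A g) : PT A (fun a => c.e (g a)) := by
  refine (PT.ite (PT.le (PT.const c.kc) (PT.mul (PT.const c.mt) (c.PT_powS hg)))
    (c.PT_powpowS c.mt hg) (PT.const (2 ^ c.kc))).congr fun a => ?_
  rw [← two_pow_max]
  rfl

/-! ### At `g = lev0 M q n` -/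

variable (q : ℕ)

theorem PT_Sn (hf : PT A f) : PT A (fun a => c.S (lev0 c.M q (f a))) :=
  c.PT_S (PT_lev0 c.hM q hf)

theorem PT_Ln (hf : PT A f) : PT A (fun a => c.L (lev0 c.M q (f a))) :=
  c.PT_L (PT_lev0 c.hM q hf)

theorem PT_Kn (hf : PT A f) : PT A (fun a => c.K (lev0 c.M q (f a))) :=
  c.PT_K (PT_lev0 c.hM q hf) (PBd_lev0 c.M q hf)

theorem PT_mcn (hf : PT A f) : PT A (fun a => c.mc (lev0 c.M q (f a))) :=
  c.PT_mc (PT_lev0 c.hM q hf) (PBd_lev0 c.M q hf)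

theorem PT_μn (hf : PT A f) : PT A (fun a => c.μ (f a) (lev0 c.M q (f a))) :=
  c.PT_μ hf (PT_lev0 c.hM q hf) (PBd_lev0 c.M q hf)

theorem PT_ℓn (hf : PT A f) : PT A (fun a => c.ℓ (f a) (lev0 c.M q (f a))) :=
  c.PT_ℓ hf (PT_lev0 c.hM q hf) (PBd_lev0 c.M q hf)

theorem PT_Dn (hf : PT A f) : PT A (fun a => c.D (lev0 c.M q (f a))) :=
  c.PT_D (PT_lev0 c.hM q hf) (PBd_lev0 c.M q hf)

theorem PT_Qn (hf : PT A f) : PT A (fun a => c.Q (lev0 c.M q (f a))) :=
  c.PT_Q (PT_lev0 c.hM q hf) (PBd_lev0 c.M q hf)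

theorem PT_Nn (hf : PT A f) : PT A (fun a => c.N (lev0 c.M q (f a))) :=
  c.PT_N (PT_lev0 c.hM q hf) (PBd_lev0 c.M q hf)

theorem PT_en (hf : PT A f) : PT A (fun a => c.e (lev0 c.M q (f a))) :=
  c.PT_e (PT_lev0 c.hM q hf)

end Cst

end Vale.Agent.P315.H527
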