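import Vale.Agent.P315.H527.Params

/-!
# The total running time over the parameter functions
-/

set_option autoImplicit false

namespace Vale.Agent.P315.H527

open Vale.Agent.P315.H809

namespace Cst

variable {c : Cst}

/-- `log` in the form of the final arithmetic -/
def lg (n : ℕ) : ℕ := Nat.log 2 (n + 2) + 1

theorem lg_pos (n : ℕ) : 1 ≤ lg n := Nat.le_add_left _ _

theorem one_le_sq_exp (g : ℕ) :
    (1 : ℝ) ≤ (c.K g : ℝ) ^ 2 * Real.exp (-(Real.log 2 / c.h * c.L g)) := by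
  have hl2 : 0 < Real.log 2 := Real.log_pos (by norm_num)
  have hh1 : (1 : ℝ) ≤ c.h := by exact_mod_cast c.hh
  have hh0 : (0 : ℝ) < c.h := by linarith
  have hM2 : (2 : ℝ) ≤ c.M := by exact_mod_cast c.hM
  have h1 : Real.exp (Real.log 2 / c.h * c.L g) ≤ (c.K g : ℝ) ^ 2 := by
    have h2 : Real.log 2 / c.h * c.L g ≤ Real.log 2 * c.L g := by
      apply mul_le_mul_of_nonneg_right _ (Nat.cast_nonneg _)
      rw [div_le_iff₀ hh0]
      nlinarith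
    calc Real.exp (Real.log 2 / c.h * c.L g) ≤ Real.exp (Real.log 2 * c.L g) :=
          Real.exp_le_exp.2 h2
      _ = (2 : ℝ) ^ c.L g := by
          rw [← Real.rpow_natCast, Real.rpow_def_of_pos (by norm_num)]
      _ ≤ (c.M : ℝ) ^ c.L g := pow_le_pow_left₀ (by norm_num) hM2 _
      _ = (c.K g : ℝ) := by unfold K; push_cast; rfl
      _ ≤ (c.K g : ℝ) ^ 2 := by
          have : (1 : ℝ) ≤ c.K g := by exact_mod_cast K_pos (c := c) g
          nlinarith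
  have h3 := Real.exp_pos (Real.log 2 / c.h * c.L g)
  rw [Real.exp_neg, ← div_eq_mul_inv, le_div_iff₀ h3]
  linarith

theorem Q_le_exp' (g : ℕ) :
    (c.Q g : ℝ) ≤ 3 * c.C0 * ((c.K g : ℝ) ^ 2 * Real.exp (-(Real.log 2 / c.h * c.L g))) := by
  have h1 := Q_le_exp (c := c) g
  have h2 := one_le_sq_exp (c := c) g
  have hC : (0 : ℝ) ≤ c.C0 := Nat.cast_nonneg _
  nlinarith

theorem mc_le_exp (g : ℕ) :
    (c.mc g : ℝ) ≤ Real.exp (Real.log 2 / (2 * c.h) * c.L g) := by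
  have hl2 : 0 < Real.log 2 := Real.log_pos (by norm_num)
  have h0 : c.mc g ≤ 2 ^ (c.L g / (2 * c.h)) :=
    Nat.pow_le_pow_right (by norm_num) (Nat.div_le_div_left c.hwm (by have := c.hh; omega))
  have h1 : (c.mc g : ℝ) ≤ (2 : ℝ) ^ (c.L g / (2 * c.h)) := by exact_mod_cast h0
  refine h1.trans ?_
  rw [← Real.rpow_natCast, Real.rpow_def_of_pos (by norm_num)]
  apply Real.exp_le_exp.2
  have : ((c.L g / (2 * c.h) : ℕ) : ℝ) ≤ (c.L g : ℝ) / ((2 * c.h : ℕ) : ℝ) := Nat.cast_div_le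
  push_cast at this
  calc Real.log 2 * ((c.L g / (2 * c.h) : ℕ) : ℝ) ≤ Real.log 2 * ((c.L g : ℝ) / (2 * c.h)) :=
        mul_le_mul_of_nonneg_left this hl2.le
    _ = _ := by ring

/-- the rounds times the mesh -/
theorem Q_mc_le (g : ℕ) :
    (c.Q g : ℝ) * c.mc g ≤
      3 * c.C0 * ((c.K g : ℝ) ^ 2 * Real.exp (-(Real.log 2 / (2 * c.h) * c.L g))) := by
  have hh0 : (0 : ℝ) < c.h := by exact_mod_cast c.hh
  have h1 := Q_le_exp' (c := c) g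
  have h2 := mc_le_exp (c := c) g
  have h3 : Real.exp (-(Real.log 2 / c.h * c.L g)) * Real.exp (Real.log 2 / (2 * c.h) * c.L g) =
      Real.exp (-(Real.log 2 / (2 * c.h) * c.L g)) := by
    rw [← Real.exp_add]
    congr 1
    field_simp
    ring
  calc (c.Q g : ℝ) * c.mc g ≤
      (3 * c.C0 * ((c.K g : ℝ) ^ 2 * Real.exp (-(Real.log 2 / c.h * c.L g)))) *
        Real.exp (Real.log 2 / (2 * c.h) * c.L g) :=
        mul_le_mul h1 h2 (Nat.cast_nonneg _) (by positivity)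
    _ = 3 * c.C0 * ((c.K g : ℝ) ^ 2 * (Real.exp (-(Real.log 2 / c.h * c.L g)) *
        Real.exp (Real.log 2 / (2 * c.h) * c.L g))) := by ring
    _ = _ := by rw [h3]

/-! ### Natural numbers -/

theorem size_le {cm CS aS n g m S : ℕ} (hm : m ≤ cm * lg n)
    (hS : S ≤ CS * (c.K g * lg n) ^ aS) :
    S + 2 * m + 10 ≤ (CS + 2 * cm + 10) * (c.K g * lg n) ^ (aS + 1) := by
  have hK := K_pos (c := c) g
  have hl := lg_pos n
  have hKl : 1 ≤ c.K g * lg n := Nat.mul_pos hK hl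
  have h1 : (c.K g * lg n) ^ aS ≤ (c.K g * lg n) ^ (aS + 1) :=
    Nat.pow_le_pow_right hKl (by omega)
  have h2 : m ≤ cm * (c.K g * lg n) ^ (aS + 1) := by
    refine hm.trans (Nat.mul_le_mul_left _ ?_)
    calc lg n ≤ c.K g * lg n := Nat.le_mul_of_pos_left _ hK
      _ = (c.K g * lg n) ^ 1 := (pow_one _).symm
      _ ≤ _ := Nat.pow_le_pow_right hKl (by omega)
  have h3 : 1 ≤ (c.K g * lg n) ^ (aS + 1) := Nat.one_le_pow _ _ hKl
  have h4 := Nat.mul_le_mul_left CS h1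
  calc S + 2 * m + 10 ≤ CS * (c.K g * lg n) ^ (aS + 1) +
        2 * (cm * (c.K g * lg n) ^ (aS + 1)) + 10 * (c.K g * lg n) ^ (aS + 1) := by omega
    _ = _ := by ring

theorem X_le {cm CS aS k n g m S X : ℕ} (hm : m ≤ cm * lg n)
    (hS : S ≤ CS * (c.K g * lg n) ^ aS) (hX : X ≤ (S + 2 * m + 10) ^ k) :
    X + m ≤ ((CS + 2 * cm + 10) ^ k + cm) *
      (c.K g ^ ((aS + 1) * k + 1) * lg n ^ ((aS + 1) * k + 1)) := by
  have hK := K_pos (c := c) g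
  have hl := lg_pos n
  have hKl : 1 ≤ c.K g * lg n := Nat.mul_pos hK hl
  have h1 : X ≤ (CS + 2 * cm + 10) ^ k * (c.K g * lg n) ^ ((aS + 1) * k + 1) := by
    refine hX.trans ((Nat.pow_le_pow_left (size_le hm hS) k).trans ?_)
    rw [mul_pow, ← pow_mul]
    exact Nat.mul_le_mul_left _ (Nat.pow_le_pow_right hKl (by omega))
  have h2 : m ≤ cm * (c.K g * lg n) ^ ((aS + 1) * k + 1) := by
    refine hm.trans (Nat.mul_le_mul_left _ ?_)
    calc lg n ≤ c.K g * lg n := Nat.le_mul_of_pos_left _ hK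
      _ = (c.K g * lg n) ^ 1 := (pow_one _).symm
      _ ≤ _ := Nat.pow_le_pow_right hKl (by omega)
  calc X + m ≤ (CS + 2 * cm + 10) ^ k * (c.K g * lg n) ^ ((aS + 1) * k + 1) +
        cm * (c.K g * lg n) ^ ((aS + 1) * k + 1) := Nat.add_le_add h1 h2
    _ = _ := by rw [← mul_pow]; ring

theorem mc_add_sq_le (g : ℕ) : (c.mc g + 1) ^ 2 ≤ 4 * c.K g := by
  have h1 := mc_sq_le (c := c) g
  have h2 := mc_pos (c := c) g
  nlinarith

/-! ### The terms -/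

/-- `log` as a real number -/
noncomputable def G (n : ℕ) : ℝ := (Nat.log 2 (n + 2) : ℝ) + 1

theorem G_one_le (n : ℕ) : 1 ≤ G n := by
  have : (0 : ℝ) ≤ (Nat.log 2 (n + 2) : ℝ) := Nat.cast_nonneg _
  unfold G; linarith

theorem lg_cast (n : ℕ) : ((lg n : ℕ) : ℝ) = G n := by unfold lg G; push_cast; rfl

theorem K_real (g : ℕ) : (1 : ℝ) ≤ c.K g := by exact_mod_cast K_pos (c := c) g

theorem X_real {cm CS aS k n g m S X : ℕ} (hm : m ≤ cm * lg n)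
    (hS : S ≤ CS * (c.K g * lg n) ^ aS) (hX : X ≤ (S + 2 * m + 10) ^ k) :
    (X : ℝ) + m ≤ (((CS + 2 * cm + 10) ^ k + cm : ℕ) : ℝ) *
      ((c.K g : ℝ) ^ ((aS + 1) * k + 1) * G n ^ ((aS + 1) * k + 1)) := by
  have := X_le (c := c) hm hS hX
  rw [← lg_cast]
  exact_mod_cast this

/-- a term `K ^ j * X` -/
theorem term_le {n g j a A A' : ℕ} {D x y Y : ℝ} (hx : x ≤ D * ((c.K g : ℝ) ^ a * G n ^ a))
    (hx0 : 0 ≤ x) (hD : 0 ≤ D)
    (hy : y ≤ Y * (c.K g : ℝ) ^ j) (hY : 0 ≤ Y) (hj : j + a ≤ A) (ha : a ≤ A') :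
    y * x ≤ Y * D * ((c.K g : ℝ) ^ A * G n ^ A') := by
  have hK := K_real (c := c) g
  have hG := G_one_le n
  have h1 : (c.K g : ℝ) ^ (j + a) ≤ (c.K g : ℝ) ^ A := pow_le_pow_right₀ hK hj
  have h2 : G n ^ a ≤ G n ^ A' := pow_le_pow_right₀ hG ha
  have hK0 : (0 : ℝ) ≤ c.K g := by linarith
  have hG0 : (0 : ℝ) ≤ G n := by linarith
  calc y * x ≤ (Y * (c.K g : ℝ) ^ j) * x := mul_le_mul_of_nonneg_right hy hx0
    _ ≤ (Y * (c.K g : ℝ) ^ j) * (D * ((c.K g : ℝ) ^ a * G n ^ a)) :=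
        mul_le_mul_of_nonneg_left hx (by positivity)
    _ = Y * D * ((c.K g : ℝ) ^ (j + a) * G n ^ a) := by rw [pow_add]; ring
    _ ≤ Y * D * ((c.K g : ℝ) ^ A * G n ^ A') := by
        apply mul_le_mul_of_nonneg_left _ (by positivity)
        exact mul_le_mul h1 h2 (by positivity) (by positivity)

/-- the factors of one cell -/
theorem cell_one (n g : ℕ) :
    ((c.mc g : ℝ) + 1) * ((c.ℓ n g : ℝ) + c.μ n g + c.mc g + 1) * ((c.ℓ n g : ℝ) + 1) ≤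
      12 * (c.mc g * ((n : ℝ) / c.K g + 1) ^ 2) + 12 * (c.mc g : ℝ) ^ 3 := by
  have hK0 : (0 : ℝ) < c.K g := by have := K_real (c := c) g; linarith
  have hℓ : (c.ℓ n g : ℝ) ≤ (n : ℝ) / c.K g + c.mc g := by
    have h1 : ((c.ℓ n g : ℕ) : ℝ) ≤ ((n / c.K g + c.mc g : ℕ) : ℝ) := by
      exact_mod_cast ℓ_le_add (c := c) n g
    have h2 : ((n / c.K g : ℕ) : ℝ) ≤ (n : ℝ) / c.K g := Nat.cast_div_le
    push_cast at h1
    linarith
  have hμ : (c.μ n g : ℝ) ≤ c.ℓ n g := by exact_mod_cast μ_le_ℓ (c := c) n g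
  have hmc1 : (1 : ℝ) ≤ c.mc g := by exact_mod_cast mc_pos (c := c) g
  have hn0 : (0 : ℝ) ≤ n := Nat.cast_nonneg _
  have hr : (0 : ℝ) ≤ (n : ℝ) / c.K g := by positivity
  generalize (n : ℝ) / c.K g = r at *
  generalize (c.mc g : ℝ) = w at *
  have hl0 : (0 : ℝ) ≤ (c.ℓ n g : ℝ) := Nat.cast_nonneg _
  have hm0 : (0 : ℝ) ≤ (c.μ n g : ℝ) := Nat.cast_nonneg _
  generalize (c.ℓ n g : ℝ) = l at *
  generalize (c.μ n g : ℝ) = u at *
  have u1 : l + 1 ≤ r + 1 + w := by linarith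
  have u2 : l + u + w + 1 ≤ 3 * (r + 1 + w) := by linarith
  have u3 : w + 1 ≤ 2 * w := by linarith
  have hs : (r + 1 + w) ^ 2 ≤ 2 * (r + 1) ^ 2 + 2 * w ^ 2 := by
    nlinarith [sq_nonneg (r + 1 - w)]
  calc (w + 1) * (l + u + w + 1) * (l + 1)
      ≤ (2 * w) * (3 * (r + 1 + w)) * (r + 1 + w) := by
        apply mul_le_mul _ u1 (by linarith) (by positivity)
        exact mul_le_mul u3 u2 (by linarith) (by linarith)
    _ = 6 * w * (r + 1 + w) ^ 2 := by ring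
    _ ≤ 6 * w * (2 * (r + 1) ^ 2 + 2 * w ^ 2) :=
        mul_le_mul_of_nonneg_left hs (by linarith)
    _ = _ := by ring

/-- all cells -/
theorem cell_le (n g CT : ℕ) :
    (c.Q g : ℝ) * (CT * (((c.mc g : ℝ) + 1) * ((c.ℓ n g : ℝ) + c.μ n g + c.mc g + 1) *
      ((c.ℓ n g : ℝ) + 1))) ≤
      (36 * c.C0 * CT : ℝ) *
      (((c.K g : ℝ) ^ 2 * Real.exp (-(Real.log 2 / (2 * c.h) * c.L g))) *
        ((n : ℝ) / c.K g + 1) ^ 2) + (24 * c.C0 * CT : ℝ) * (c.K g : ℝ) ^ 4 := by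
  have h1 := cell_one (c := c) n g
  have hK := K_real (c := c) g
  have hK0 : (0 : ℝ) ≤ c.K g := by linarith
  have hCT : (0 : ℝ) ≤ CT := Nat.cast_nonneg _
  have hC0 : (0 : ℝ) ≤ c.C0 := Nat.cast_nonneg _
  have hQ0 : (0 : ℝ) ≤ c.Q g := Nat.cast_nonneg _
  have h2 := Q_mc_le (c := c) g
  have h3 : (c.Q g : ℝ) * (c.mc g : ℝ) ^ 3 ≤ 2 * c.C0 * (c.K g : ℝ) ^ 4 := by
    have h4 : (c.Q g : ℝ) ≤ 2 * c.C0 * (c.K g : ℝ) ^ 2 := by
      exact_mod_cast Q_le (c := c) g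
    have h5 : (c.mc g : ℝ) ^ 2 ≤ c.K g := by exact_mod_cast mc_sq_le (c := c) g
    have h6 : (c.mc g : ℝ) ≤ c.K g := by exact_mod_cast mc_le_K (c := c) g
    have hm0 : (0 : ℝ) ≤ c.mc g := Nat.cast_nonneg _
    have h7 : (c.mc g : ℝ) ^ 3 ≤ (c.K g : ℝ) ^ 2 := by
      calc (c.mc g : ℝ) ^ 3 = (c.mc g : ℝ) ^ 2 * (c.mc g : ℝ) := by ring
        _ ≤ (c.K g : ℝ) * (c.K g : ℝ) := mul_le_mul h5 h6 hm0 hK0
        _ = (c.K g : ℝ) ^ 2 := by ring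
    calc (c.Q g : ℝ) * (c.mc g : ℝ) ^ 3 ≤ (2 * c.C0 * (c.K g : ℝ) ^ 2) * (c.K g : ℝ) ^ 2 :=
          mul_le_mul h4 h7 (by positivity) (by positivity)
      _ = _ := by ring
  calc (c.Q g : ℝ) * (CT * (((c.mc g : ℝ) + 1) * ((c.ℓ n g : ℝ) + c.μ n g + c.mc g + 1) *
      ((c.ℓ n g : ℝ) + 1)))
      ≤ (c.Q g : ℝ) * (CT * (12 * (c.mc g * ((n : ℝ) / c.K g + 1) ^ 2) +
        12 * (c.mc g : ℝ) ^ 3)) :=
        mul_le_mul_of_nonneg_left (mul_le_mul_of_nonneg_left h1 hCT) hQ0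
    _ = (12 * CT) * (((c.Q g : ℝ) * c.mc g) * ((n : ℝ) / c.K g + 1) ^ 2) +
        (12 * CT) * ((c.Q g : ℝ) * (c.mc g : ℝ) ^ 3) := by ring
    _ ≤ (12 * CT) * ((3 * c.C0 * ((c.K g : ℝ) ^ 2 *
          Real.exp (-(Real.log 2 / (2 * c.h) * c.L g)))) * ((n : ℝ) / c.K g + 1) ^ 2) +
        (12 * CT) * (2 * c.C0 * (c.K g : ℝ) ^ 4) := by
        apply add_le_add
        · exact mul_le_mul_of_nonneg_left (mul_le_mul_of_nonneg_right h2 (sq_nonneg _))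
            (by positivity)
        · exact mul_le_mul_of_nonneg_left h3 (by positivity)
    _ = _ := by ring

theorem linear_le (n C1 CP cm m kp A' : ℕ) (hm : m ≤ cm * lg n) (hA : kp ≤ A') :
    (C1 : ℝ) * ((n : ℝ) + 1) + CP * ((m : ℝ) + 10) ^ kp ≤
      (C1 + CP * (cm + 10) ^ kp : ℝ) * (((n : ℝ) + 1) * G n ^ A') := by
  have hG := G_one_le n
  have hGp : G n ^ kp ≤ G n ^ A' := pow_le_pow_right₀ hG hA
  have hG1 : (1 : ℝ) ≤ G n ^ A' := one_le_pow₀ hG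
  have h1 : (m : ℝ) ≤ cm * G n := by
    rw [← lg_cast]
    exact_mod_cast hm
  have hn0 : (0 : ℝ) ≤ n := Nat.cast_nonneg _
  have h2 : (m : ℝ) + 10 ≤ (cm + 10) * G n := by nlinarith
  have h3 : ((m : ℝ) + 10) ^ kp ≤ (cm + 10) ^ kp * G n ^ kp := by
    rw [← mul_pow]
    exact pow_le_pow_left₀ (by positivity) h2 kp
  have h5 : G n ^ kp ≤ ((n : ℝ) + 1) * G n ^ A' := by nlinarith
  have h6 : (n : ℝ) + 1 ≤ ((n : ℝ) + 1) * G n ^ A' := by nlinarith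
  calc (C1 : ℝ) * ((n : ℝ) + 1) + CP * ((m : ℝ) + 10) ^ kp
      ≤ C1 * (((n : ℝ) + 1) * G n ^ A') +
        CP * ((cm + 10) ^ kp * (((n : ℝ) + 1) * G n ^ A')) := by
        apply add_le_add
        · exact mul_le_mul_of_nonneg_left h6 (Nat.cast_nonneg _)
        · apply mul_le_mul_of_nonneg_left _ (Nat.cast_nonneg _)
          exact h3.trans (mul_le_mul_of_nonneg_left h5 (by positivity))
    _ = _ := by ring

/-- the constant of the cells -/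
noncomputable def e1 (c : Cst) (CT : ℕ) : ℝ := 36 * c.C0 * CT

/-- the constant of the polynomial time functions -/
noncomputable def e2 (c : Cst) (C1 CT : ℕ) (D : ℝ) : ℝ :=
  C1 * c.dN * D + 2 * c.C0 * C1 * 4 * D + C1 * D + 24 * c.C0 * CT

/-- the constant of the linear part -/
noncomputable def e3 (cm C1 CP kp : ℕ) : ℝ := C1 + CP * (cm + 10) ^ kp

/-- the part of the polynomial time functions -/
theorem poly_le {n g a A A' C1 CT : ℕ} {D x : ℝ}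
    (hX1 : x ≤ D * ((c.K g : ℝ) ^ a * G n ^ a)) (hx0 : 0 ≤ x)
    (hD : 0 ≤ D) (hA : c.aN + a + 4 ≤ A) (hA' : a ≤ A') :
    ((C1 : ℝ) * ((c.N g : ℝ) + 2)) * x + ((c.Q g : ℝ) * (C1 * ((c.mc g : ℝ) + 1) ^ 2)) * x +
      (C1 : ℝ) * x + (24 * c.C0 * CT : ℝ) * (c.K g : ℝ) ^ 4 ≤
      e2 c C1 CT D * ((c.K g : ℝ) ^ A * G n ^ A') := by
  have hK := K_real (c := c) g
  have hK0 : (0 : ℝ) ≤ c.K g := by linarith
  have hG := G_one_le n
  have t2 : ((C1 : ℝ) * ((c.N g : ℝ) + 2)) * x ≤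
      C1 * c.dN * D * ((c.K g : ℝ) ^ A * G n ^ A') := by
    refine term_le (j := c.aN) hX1 hx0 hD ?_ (by positivity) (by omega) (by omega)
    have h1 : (c.N g : ℝ) + 2 ≤ c.dN * (c.K g : ℝ) ^ c.aN := by
      exact_mod_cast N_add_two_le (c := c) g
    calc (C1 : ℝ) * ((c.N g : ℝ) + 2) ≤ C1 * (c.dN * (c.K g : ℝ) ^ c.aN) :=
          mul_le_mul_of_nonneg_left h1 (Nat.cast_nonneg _)
      _ = _ := by ring
  have t4 : (C1 : ℝ) * x ≤ C1 * D * ((c.K g : ℝ) ^ A * G n ^ A') :=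
    term_le (j := 0) hX1 hx0 hD (by simp) (by positivity) (by omega) (by omega)
  have t3 : ((c.Q g : ℝ) * (C1 * ((c.mc g : ℝ) + 1) ^ 2)) * x ≤
      2 * c.C0 * C1 * 4 * D * ((c.K g : ℝ) ^ A * G n ^ A') := by
    refine term_le (j := 3) hX1 hx0 hD ?_ (by positivity) (by omega) (by omega)
    have h1 : (c.Q g : ℝ) ≤ 2 * c.C0 * (c.K g : ℝ) ^ 2 := by
      exact_mod_cast Q_le (c := c) g
    have h2 : ((c.mc g : ℝ) + 1) ^ 2 ≤ 4 * c.K g := by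
      exact_mod_cast mc_add_sq_le (c := c) g
    calc (c.Q g : ℝ) * (C1 * ((c.mc g : ℝ) + 1) ^ 2)
        ≤ (2 * c.C0 * (c.K g : ℝ) ^ 2) * (C1 * (4 * c.K g)) := by
          apply mul_le_mul h1 _ (by positivity) (by positivity)
          exact mul_le_mul_of_nonneg_left h2 (Nat.cast_nonneg _)
      _ = _ := by ring
  have t5 : (24 * c.C0 * CT : ℝ) * (c.K g : ℝ) ^ 4 ≤
      24 * c.C0 * CT * ((c.K g : ℝ) ^ A * G n ^ A') := by
    apply mul_le_mul_of_nonneg_left _ (by positivity)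
    have h1 : (c.K g : ℝ) ^ 4 ≤ (c.K g : ℝ) ^ A := pow_le_pow_right₀ hK (by omega)
    have h2 : (1 : ℝ) ≤ G n ^ A' := one_le_pow₀ hG
    calc (c.K g : ℝ) ^ 4 ≤ (c.K g : ℝ) ^ A := h1
      _ = (c.K g : ℝ) ^ A * 1 := (mul_one _).symm
      _ ≤ _ := mul_le_mul_of_nonneg_left h2 (by positivity)
  have h := add_le_add (add_le_add (add_le_add t2 t3) t4) t5
  refine h.trans (le_of_eq ?_)
  unfold e2
  ring

theorem cast_time {n g m X T kp CT C1 CP : ℕ}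
    (hT : T ≤ C1 * (n + 1) + CP * (m + 10) ^ kp + C1 * (c.N g + 2) * (X + m) +
        c.Q g * (CT * ((c.mc g + 1) * (c.ℓ n g + c.μ n g + c.mc g + 1) * (c.ℓ n g + 1)) +
          C1 * (c.mc g + 1) ^ 2 * (X + m)) + C1 * (X + m)) :
    (T : ℝ) ≤ (C1 * ((n : ℝ) + 1) + CP * ((m : ℝ) + 10) ^ kp) +
      (((C1 : ℝ) * ((c.N g : ℝ) + 2)) * ((X : ℝ) + m) +
        ((c.Q g : ℝ) * (C1 * ((c.mc g : ℝ) + 1) ^ 2)) * ((X : ℝ) + m) +
        (C1 : ℝ) * ((X : ℝ) + m)) +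
      (c.Q g : ℝ) * (CT * (((c.mc g : ℝ) + 1) * ((c.ℓ n g : ℝ) + c.μ n g + c.mc g + 1) *
      ((c.ℓ n g : ℝ) + 1))) := by
  have h1 : (T : ℝ) ≤ ((C1 * (n + 1) + CP * (m + 10) ^ kp + C1 * (c.N g + 2) * (X + m) +
        c.Q g * (CT * ((c.mc g + 1) * (c.ℓ n g + c.μ n g + c.mc g + 1) * (c.ℓ n g + 1)) +
          C1 * (c.mc g + 1) ^ 2 * (X + m)) + C1 * (X + m) : ℕ) : ℝ) := Nat.cast_le.2 hT
  refine h1.trans (le_of_eq ?_)
  push_cast
  ring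

theorem sum_le {cm n g m S X T k aS kp CS CT C1 CP : ℕ} (hm : m ≤ cm * lg n)
    (hS : S ≤ CS * (c.K g * lg n) ^ aS) (hX : X ≤ (S + 2 * m + 10) ^ k)
    (hT : T ≤ C1 * (n + 1) + CP * (m + 10) ^ kp + C1 * (c.N g + 2) * (X + m) +
        c.Q g * (CT * ((c.mc g + 1) * (c.ℓ n g + c.μ n g + c.mc g + 1) * (c.ℓ n g + 1)) +
          C1 * (c.mc g + 1) ^ 2 * (X + m)) + C1 * (X + m)) :
    (T : ℝ) ≤ e3 cm C1 CP kp * (((n : ℝ) + 1) * G n ^ ((aS + 1) * k + 1 + kp)) +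
      e2 c C1 CT (((CS + 2 * cm + 10) ^ k + cm : ℕ) : ℝ) *
        ((c.K g : ℝ) ^ (c.aN + ((aS + 1) * k + 1) + 4) * G n ^ ((aS + 1) * k + 1 + kp)) +
      e1 c CT * (((c.K g : ℝ) ^ 2 * Real.exp (-(Real.log 2 / (2 * c.h) * c.L g))) *
        ((n : ℝ) / c.K g + 1) ^ 2) := by
  have h0 := cast_time hT
  have h1 := linear_le n C1 CP cm m kp ((aS + 1) * k + 1 + kp) hm (by omega)
  have h2 := poly_le (C1 := C1) (CT := CT) (A := c.aN + ((aS + 1) * k + 1) + 4)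
    (A' := (aS + 1) * k + 1 + kp) (X_real (c := c) hm hS hX) (by positivity) (by positivity)
    le_rfl (by omega)
  have h3 := cell_le (c := c) n g CT
  unfold e3 e1
  linarith

theorem combine_le {E1 E2 E3 V P W : ℝ} (h1 : 0 ≤ E1) (h2 : 0 ≤ E2) (h3 : 0 ≤ E3) (hV : 0 ≤ V)
    (hP : 0 ≤ P) (hW : 0 ≤ W) :
    E3 * V + E2 * P + E1 * W ≤ (E1 + E2 + E3) * W + (E1 + E2 + E3) * P + (E1 + E2 + E3) * V := by
  nlinarith [mul_nonneg h1 hV, mul_nonneg h2 hV, mul_nonneg h1 hP,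
    mul_nonneg h3 hP, mul_nonneg h2 hW, mul_nonneg h3 hW]

/-- The total time. `X` is the cost of one application of a polynomial time function, `S` the
size of the states, `m` the number of bits of a number; `k`, `aS` must be chosen before `q`; the
exponent `kp` (reading the parameters) may depend on `q`. -/
theorem total_time (c : Cst) {q k aS : ℕ} (hq : c.aN + ((aS + 1) * k + 1) + 4 ≤ q)
    (kp cm CS CT C1 CP : ℕ) :
    ∃ δ C : ℝ, 0 < δ ∧ 0 ≤ C ∧ ∀ n m S X T : ℕ, m ≤ cm * lg n →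
      S ≤ CS * (c.K (lev0 c.M q n) * lg n) ^ aS → X ≤ (S + 2 * m + 10) ^ k →
      T ≤ C1 * (n + 1) + CP * (m + 10) ^ kp + C1 * (c.N (lev0 c.M q n) + 2) * (X + m) +
        c.Q (lev0 c.M q n) * (CT * ((c.mc (lev0 c.M q n) + 1) *
          (c.ℓ n (lev0 c.M q n) + c.μ n (lev0 c.M q n) + c.mc (lev0 c.M q n) + 1) *
          (c.ℓ n (lev0 c.M q n) + 1)) + C1 * (c.mc (lev0 c.M q n) + 1) ^ 2 * (X + m)) +
        C1 * (X + m) →
      (T : ℝ) ≤ C * ((n : ℝ) + 1) ^ (2 - δ) := by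
  have hl2 : 0 < Real.log 2 := Real.log_pos (by norm_num)
  have hh0 : (0 : ℝ) < 2 * c.h := mul_pos (by norm_num) (Nat.cast_pos.2 c.hh)
  have hq1 : 1 ≤ q := by omega
  have hE1p : 0 ≤ e1 c CT := by unfold e1; positivity
  have hE2p : 0 ≤ e2 c C1 CT (((CS + 2 * cm + 10) ^ k + cm : ℕ) : ℝ) := by
    unfold e2; positivity
  have hE3p : 0 ≤ e3 cm C1 CP kp := by unfold e3; positivity
  obtain ⟨δ, C, hδ, hC, hmain⟩ := final_time_lev (B := c.B) (M := c.M) (q := q)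
    (A := c.aN + ((aS + 1) * k + 1) + 4) (A' := (aS + 1) * k + 1 + kp) c.hB c.hM hq1 hq
    (c := Real.log 2 / (2 * c.h))
    (C₀ := e1 c CT + e2 c C1 CT (((CS + 2 * cm + 10) ^ k + cm : ℕ) : ℝ) + e3 cm C1 CP kp)
    (div_pos hl2 hh0) (add_nonneg (add_nonneg hE1p hE2p) hE3p)
  refine ⟨δ, C, hδ, hC, fun n m S X T hm hS hX hT => (sum_le hm hS hX hT).trans ?_⟩
  have hG1 := G_one_le n
  have hn0 : (0 : ℝ) ≤ (n : ℝ) + 1 := by positivity
  have hG0 : (0 : ℝ) ≤ G n := by linarith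
  refine (combine_le hE1p hE2p hE3p (mul_nonneg hn0 (pow_nonneg hG0 _))
    (mul_nonneg (pow_nonneg (Nat.cast_nonneg _) _) (pow_nonneg hG0 _))
    (mul_nonneg (mul_nonneg (pow_nonneg (Nat.cast_nonneg _) _) (Real.exp_pos _).le)
      (sq_nonneg _))).trans ?_
  refine le_trans (le_of_eq ?_) (hmain n)
  have hKN : (c.K (lev0 c.M q n) : ℝ) = (c.M : ℝ) ^ lev c.B c.M q n := by
    unfold K; rw [L_lev0]; push_cast; rfl
  rw [hKN, L_lev0]
  unfold G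
  ring

end Cst

end Vale.Agent.P315.H527
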