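import Vale.Agent.P315.RAM.Inst
import Vale.Agent.P315.H527.ParamsPT
import Vale.Agent.P315.H527.Total

/-!
# The parameters fit the main program, and the total time
-/

set_option autoImplicit false

namespace Vale.Agent.P315.H527

open Vale.Agent.Lib.PolyTime (PT PBd)
open Vale.Agent.P315.H809 Vale.Agent.P315.RAM

namespace Cst

variable (c : Cst) (q : ℕ)

/-- sum of the two lengths -/
def sl (p : ℕ × ℕ) : ℕ := p.1 + p.2

/-- number of levels before rounding, for the two lengths -/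
def gg (p : ℕ × ℕ) : ℕ := lev0 c.M q (sl p)

/-- the numbers have `cm * size (n + 2)` bits -/
def cm : ℕ := c.kc + 48 * c.mt + 10

theorem pt_sl : PT ∅ sl := PT.add PT.fst' PT.snd'

theorem pt_gg : PT ∅ (c.gg q) := PT_lev0 c.hM q pt_sl

theorem pbd_gg : PBd (c.gg q) := PBd_lev0 c.M q pt_sl

/-- **The parameters of the main program.** The prefix of the feed is
`|x|, |y|, L, S, μ, ℓ`. -/
def adF : AdF where
  m p := c.cm * Nat.size (sl p + 2)
  N p := c.N (c.gg q p)
  e p := c.e (c.gg q p)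
  Q p := c.Q (c.gg q p)
  l p := c.ℓ (sl p) (c.gg q p)
  mu p := c.μ (sl p) (c.gg q p)
  mc p := c.mc (c.gg q p)
  D p := c.D (c.gg q p)
  pre := [fun p => p.1, fun p => p.2, fun p => c.L (c.gg q p), fun p => c.S (c.gg q p),
    fun p => c.μ (sl p) (c.gg q p), fun p => c.ℓ (sl p) (c.gg q p)]
  pt_m := PT.mul (PT.const _) (PT.natSize (PT.add pt_sl (PT.const 2)))
  pt_N := c.PT_N (c.pt_gg q) (c.pbd_gg q)
  pt_e := c.PT_e (c.pt_gg q)
  pt_Q := c.PT_Q (c.pt_gg q) (c.pbd_gg q)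
  pt_l := c.PT_ℓ pt_sl (c.pt_gg q) (c.pbd_gg q)
  pt_mu := c.PT_μ pt_sl (c.pt_gg q) (c.pbd_gg q)
  pt_mc := c.PT_mc (c.pt_gg q) (c.pbd_gg q)
  pt_D := c.PT_D (c.pt_gg q) (c.pbd_gg q)
  pt_pre := by
    intro g hg
    simp only [List.mem_cons, List.not_mem_nil, or_false] at hg
    rcases hg with rfl | rfl | rfl | rfl | rfl | rfl
    · exact PT.fst'
    · exact PT.snd'
    · exact c.PT_L (c.pt_gg q)
    · exact c.PT_S (c.pt_gg q)
    · exact c.PT_μ pt_sl (c.pt_gg q) (c.pbd_gg q)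
    · exact c.PT_ℓ pt_sl (c.pt_gg q) (c.pbd_gg q)
  len := by simp

/-- the modulus of the seeds is a power of two -/
theorem adF_e_eq (p : ℕ × ℕ) : ∃ j, (c.adF q).e p = 2 ^ j := ⟨_, rfl⟩

theorem size_eq_lg (n : ℕ) : Nat.size (n + 2) = lg n := by
  unfold lg
  apply le_antisymm
  · rw [Nat.size_le]
    exact Nat.lt_pow_succ_log_self (by norm_num) _
  · rw [Nat.succ_le_iff, Nat.lt_size]
    exact Nat.pow_log_le_self 2 (by omega)

theorem adF_m (p : ℕ × ℕ) : (c.adF q).m p = c.cm * lg (sl p) := by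
  show c.cm * Nat.size (sl p + 2) = _
  rw [size_eq_lg]

/-! ### Everything is polynomial in `b = n + 2` -/

theorem const_le_pow {b : ℕ} (hb : 2 ≤ b) (C : ℕ) : C ≤ b ^ C :=
  Nat.lt_two_pow_self.le.trans (Nat.pow_le_pow_left hb C)

theorem mul_pow_le {b : ℕ} (hb : 2 ≤ b) {v C a : ℕ} (h : v ≤ C * b ^ a) : v ≤ b ^ (C + a) := by
  rw [pow_add]
  exact h.trans (Nat.mul_le_mul_right _ (const_le_pow hb C))

theorem sum_pow_le {b : ℕ} (hb : 2 ≤ b) {u v a a' : ℕ} (hu : u ≤ b ^ a) (hv : v ≤ b ^ a') :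
    u + v ≤ b ^ (a + a' + 1) := by
  have hb0 : 0 < b := by omega
  have h1 : b ^ a ≤ b ^ (a + a') := Nat.pow_le_pow_right hb0 (by omega)
  have h2 : b ^ a' ≤ b ^ (a + a') := Nat.pow_le_pow_right hb0 (by omega)
  rw [pow_succ]
  calc u + v ≤ b ^ (a + a') * 2 := by omega
    _ ≤ _ := Nat.mul_le_mul_left _ hb

theorem prod_pow_le {b u v a a' : ℕ} (hu : u ≤ b ^ a) (hv : v ≤ b ^ a') :
    u * v ≤ b ^ (a + a') := by
  rw [pow_add]
  exact Nat.mul_le_mul hu hv

/-- `l ≤ 2 n + 1` -/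
theorem ℓ_le_two {q : ℕ} (hq : 1 ≤ q) (n : ℕ) : c.ℓ n (lev0 c.M q n) ≤ 2 * n + 1 := by
  have h1 := ℓ_le_add (c := c) n (lev0 c.M q n)
  have h2 := mc_le_K (c := c) (lev0 c.M q n)
  have h3 := K_le (c := c) hq n
  have h4 := Nat.div_le_self n (c.K (lev0 c.M q n))
  omega

/-- the exponent of the size of the registers -/
def c1 (CS aS CV aV : ℕ) : ℕ :=
  2 * (c.dN + c.aN + c.cm + CS + aS + aS + CV + aV + c.C0 + c.C0 + c.cm + c.kc + 48 * c.mt + 40)

variable {c q}

theorem lg_le (n : ℕ) : lg n ≤ n + 2 := by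
  unfold lg
  have := Nat.log_lt_self 2 (x := n + 2) (by omega)
  omega

theorem pow_le_max {x y : List ℕ} {a A : ℕ} (ha : a ≤ A) :
    (x.length + y.length + 2) ^ a ≤ (max x.length y.length + 2) ^ (2 * A) := by
  have h1 : x.length + y.length + 2 ≤ (max x.length y.length + 2) ^ 2 := by
    have := le_max_left x.length y.length
    have := le_max_right x.length y.length
    nlinarith
  calc (x.length + y.length + 2) ^ a ≤ ((max x.length y.length + 2) ^ 2) ^ a :=
        Nat.pow_le_pow_left h1 a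
    _ = (max x.length y.length + 2) ^ (2 * a) := by rw [← pow_mul]
    _ ≤ _ := Nat.pow_le_pow_right (by omega) (by omega)

theorem pow_le_R {x y : List ℕ} {CS aS CV aV a v : ℕ}
    (ha : a ≤ c.dN + c.aN + c.cm + CS + aS + aS + CV + aV + c.C0 + c.C0 + c.cm + c.kc + 48 * c.mt + 40)
    (hv : v ≤ (x.length + y.length + 2) ^ a) :
    v ≤ (max x.length y.length + 2) ^ c.c1 CS aS CV aV :=
  hv.trans (pow_le_max ha)

theorem lt_two_pow_m {n v : ℕ} (hv : v < (n + 2) ^ c.cm) : v < 2 ^ (c.cm * lg n) := by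
  refine lt_of_lt_of_le hv ?_
  rw [← size_eq_lg, Nat.mul_comm, pow_mul]
  exact Nat.pow_le_pow_left (Nat.lt_size_self _).le _

/-- **The parameters fit.** -/
theorem fits (hq : 1 ≤ q) {CS aS CV aV : ℕ} {x y : List ℕ} {S Vb : ℕ}
    (hS : S ≤ CS * (c.K (c.gg q (len2 x y)) * lg (x.length + y.length)) ^ aS)
    (hV : Vb ≤ CV * c.K (c.gg q (len2 x y)) ^ aV) :
    (c.adF q).Fits x y S Vb ((max x.length y.length + 2) ^ c.c1 CS aS CV aV) := by
  have hgg : c.gg q (len2 x y) = lev0 c.M q (x.length + y.length) := rfl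
  have hsl : sl (len2 x y) = x.length + y.length := rfl
  rw [hgg] at hS hV
  set n := x.length + y.length with hn
  set g := lev0 c.M q n with hg
  have hb : 2 ≤ n + 2 := by omega
  have hK : c.K g ≤ n + 2 := (K_le hq n).trans (by omega)
  have hK1 : c.K g ≤ (n + 2) ^ 1 := by rw [pow_one]; exact hK
  have hl : c.ℓ n g ≤ 2 * n + 1 := ℓ_le_two c hq n
  have hμl := μ_le_ℓ (c := c) n g
  have hmcK := mc_le_K (c := c) g
  have hLK := L_lt_K (c := c) g
  have hSK := S_succ_le (c := c) g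
  have hlg := lg_le n
  have hsq : 2 * n + 4 ≤ (n + 2) ^ 2 := by nlinarith
  have hcm : (n + 2) ^ 10 ≤ (n + 2) ^ c.cm :=
    Nat.pow_le_pow_right (by omega) (by unfold cm; omega)
  have h210 : (n + 2) ^ 2 ≤ (n + 2) ^ 10 := Nat.pow_le_pow_right (by omega) (by omega)
  have h910 : 288 * (n + 2) ≤ (n + 2) ^ 10 := by
    rw [show 10 = 9 + 1 from rfl, pow_succ]
    apply Nat.mul_le_mul_right
    calc 288 ≤ 2 ^ 9 := by norm_num
      _ ≤ (n + 2) ^ 9 := Nat.pow_le_pow_left (by omega) _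
  have hm : c.cm * lg n ≤ (n + 2) ^ (c.cm + 1) := by
    apply mul_pow_le hb
    rw [pow_one]
    exact Nat.mul_le_mul_left _ hlg
  have hN : c.N g + 2 ≤ (n + 2) ^ (c.dN + c.aN) := mul_pow_le hb (N_le hq n)
  have he : c.e g ≤ (n + 2) ^ (c.kc + 48 * c.mt) := e_le' hq n
  have hSp : S ≤ (n + 2) ^ (CS + (aS + aS)) := by
    apply mul_pow_le hb
    refine hS.trans (Nat.mul_le_mul_left _ ?_)
    rw [mul_pow, pow_add]
    exact Nat.mul_le_mul (Nat.pow_le_pow_left hK _) (Nat.pow_le_pow_left hlg _)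
  have hVp : Vb ≤ (n + 2) ^ (CV + aV) := by
    apply mul_pow_le hb
    exact hV.trans (Nat.mul_le_mul_left _ (Nat.pow_le_pow_left hK _))
  have hQp : c.Q g ≤ (n + 2) ^ (2 * c.C0 + 2) := by
    apply mul_pow_le hb
    exact (Q_le g).trans (Nat.mul_le_mul_left _ (Nat.pow_le_pow_left hK _))
  have hNm : (6 + c.N g) * (2 * (c.cm * lg n) + 1) + S + 2 * (c.cm * lg n) + 10 ≤
      (n + 2) ^ (c.dN + c.aN + c.cm + CS + aS + aS + c.cm + 26) := by
    have h1 : 6 + c.N g ≤ (n + 2) ^ (5 + (c.dN + c.aN)) := by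
      apply mul_pow_le hb
      have : 1 ≤ (n + 2) ^ (c.dN + c.aN) := Nat.one_le_pow _ _ (by omega)
      omega
    have h2 : 2 * (c.cm * lg n) + 1 ≤ (n + 2) ^ (3 + (c.cm + 1)) := by
      apply mul_pow_le hb
      have : 1 ≤ (n + 2) ^ (c.cm + 1) := Nat.one_le_pow _ _ (by omega)
      omega
    have h3 : 2 * (c.cm * lg n) + 10 ≤ (n + 2) ^ (12 + (c.cm + 1)) := by
      apply mul_pow_le hb
      have : 1 ≤ (n + 2) ^ (c.cm + 1) := Nat.one_le_pow _ _ (by omega)
      omega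
    have h4 := sum_pow_le hb (sum_pow_le hb (prod_pow_le h1 h2) hSp) h3
    rw [Nat.add_assoc _ (2 * (c.cm * lg n)) 10]
    refine h4.trans (Nat.pow_le_pow_right (by omega) ?_)
    omega
  have hmax : (x.length ≤ n ∧ y.length ≤ n) := by omega
  have hbig : n + 2 ≤ (n + 2) ^ 1 := by rw [pow_one]
  have hgp : ∀ f ∈ (c.adF q).pre, f (len2 x y) < (n + 2) ^ 10 := by
    intro f hf
    simp only [adF, List.mem_cons, List.not_mem_nil, or_false] at hf
    rcases hf with rfl | rfl | rfl | rfl | rfl | rfl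
    · show x.length < _; omega
    · show y.length < _; omega
    · show c.L g < _; omega
    · show c.S g < _; omega
    · show c.μ n g < _; omega
    · show c.ℓ n g < _; omega
  refine ⟨?_, ?_, ?_, ?_, e_pos g, ?_, le_rfl, ?_, ?_, ?_, ?_, ?_, ?_, ?_, ?_, ?_, ?_⟩
  · show x.length < 2 ^ (c.adF q).m (len2 x y)
    rw [adF_m]
    exact lt_two_pow_m (by rw [hsl]; omega)
  · show y.length < 2 ^ (c.adF q).m (len2 x y)
    rw [adF_m]
    exact lt_two_pow_m (by rw [hsl]; omega)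
  · show c.ℓ n g < 2 ^ (c.adF q).m (len2 x y)
    rw [adF_m]
    exact lt_two_pow_m (by rw [hsl]; omega)
  · intro f hf
    rw [adF_m]
    exact lt_two_pow_m (by rw [hsl]; exact lt_of_lt_of_le (hgp f hf) hcm)
  · show c.e g ≤ 2 ^ (c.adF q).m (len2 x y)
    rw [adF_m]
    refine (lt_two_pow_m (lt_of_le_of_lt he ?_)).le
    exact Nat.pow_lt_pow_right (by omega) (by unfold cm; omega)
  · refine pow_le_R (a := 10) (by omega) ?_
    have : 10 * (x.length + y.length + 10) ≤ 50 * (n + 2) := by omega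
    rw [← hn]
    omega
  · show 4 * (c.adF q).m (len2 x y) + 10 ≤ _
    rw [adF_m, hsl]
    refine pow_le_R (a := 14 + (c.cm + 1)) (by omega) ?_
    apply mul_pow_le hb
    have : 1 ≤ (n + 2) ^ (c.cm + 1) := Nat.one_le_pow _ _ (by omega)
    omega
  · show (6 + c.N g) * (2 * (c.adF q).m (len2 x y) + 1) + S + 2 * (c.adF q).m (len2 x y) + 10 ≤ _
    rw [adF_m, hsl]
    exact pow_le_R (by omega) hNm
  · show c.e g ≤ _
    exact pow_le_R (by omega) he
  · show c.Q g ≤ _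
    exact pow_le_R (by omega) hQp
  · show (Vb + 1) * (c.ℓ n g + 1) ≤ _
    refine pow_le_R (a := 2 + (CV + aV) + 2) (by omega) ?_
    rw [← hn]
    apply prod_pow_le
    · apply mul_pow_le hb
      have : 1 ≤ (n + 2) ^ (CV + aV) := Nat.one_le_pow _ _ (by omega)
      omega
    · omega
  · show c.ℓ n g + c.μ n g + 1 ≤ _
    refine pow_le_R (a := 10) (by omega) ?_
    rw [← hn]
    omega
  · show (c.mc g + 1) * (c.mc g + 1) ≤ _
    refine pow_le_R (a := 10) (by omega) ?_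
    have := mc_add_sq_le (c := c) g
    rw [pow_two] at this
    rw [← hn]
    omega
  · show c.D g ≤ _
    refine pow_le_R (a := 10) (by omega) ?_
    unfold D
    rw [← hn]
    omega
  · intro f hf
    exact pow_le_R (a := 10) (by omega) (hgp f hf).le

end Cst

end Vale.Agent.P315.H527
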