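import Vale.Agent.P315.H527.AdFit

/-!
# The total time of the main program
-/

set_option autoImplicit false

namespace Vale.Agent.P315.H527

open Vale.Agent.P315.H809 Vale.Agent.P315.RAM

namespace Cst

variable {c : Cst} {q : ℕ}

/-- the size of the feed and the states -/
theorem size_all_le {n g S CS aS : ℕ} (hS : S ≤ CS * (c.K g * lg n) ^ aS) :
    (6 + c.N g) * (2 * (c.cm * lg n) + 1) + S ≤
      (3 * c.dN * (2 * c.cm + 1) + CS) * (c.K g * lg n) ^ (c.aN + 1 + aS) := by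
  have hK := K_pos (c := c) g
  have hl := lg_pos n
  have hKl : 1 ≤ c.K g * lg n := Nat.mul_pos hK hl
  have h1 : 6 + c.N g ≤ 3 * c.dN * c.K g ^ c.aN := by
    have := N_add_two_le (c := c) g
    calc 6 + c.N g ≤ 3 * (c.N g + 2) := by omega
      _ ≤ 3 * (c.dN * c.K g ^ c.aN) := Nat.mul_le_mul_left _ this
      _ = _ := by ring
  have h2 : 2 * (c.cm * lg n) + 1 ≤ (2 * c.cm + 1) * lg n := by
    have : (2 * c.cm + 1) * lg n = 2 * (c.cm * lg n) + lg n := by ring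
    omega
  have h3 : c.K g ^ c.aN * lg n ≤ (c.K g * lg n) ^ (c.aN + 1 + aS) := by
    calc c.K g ^ c.aN * lg n ≤ (c.K g * lg n) ^ c.aN * (c.K g * lg n) ^ 1 := by
          apply Nat.mul_le_mul
          · exact Nat.pow_le_pow_left (Nat.le_mul_of_pos_right _ hl) _
          · rw [pow_one]; exact Nat.le_mul_of_pos_left _ hK
      _ = (c.K g * lg n) ^ (c.aN + 1) := (pow_add _ _ _).symm
      _ ≤ _ := Nat.pow_le_pow_right hKl (by omega)
  have h4 : (c.K g * lg n) ^ aS ≤ (c.K g * lg n) ^ (c.aN + 1 + aS) :=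
    Nat.pow_le_pow_right hKl (by omega)
  calc (6 + c.N g) * (2 * (c.cm * lg n) + 1) + S
      ≤ (3 * c.dN * c.K g ^ c.aN) * ((2 * c.cm + 1) * lg n) +
        CS * (c.K g * lg n) ^ (c.aN + 1 + aS) :=
        Nat.add_le_add (Nat.mul_le_mul h1 h2) (hS.trans (Nat.mul_le_mul_left _ h4))
    _ = 3 * c.dN * (2 * c.cm + 1) * (c.K g ^ c.aN * lg n) +
        CS * (c.K g * lg n) ^ (c.aN + 1 + aS) := by ring
    _ ≤ 3 * c.dN * (2 * c.cm + 1) * (c.K g * lg n) ^ (c.aN + 1 + aS) +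
        CS * (c.K g * lg n) ^ (c.aN + 1 + aS) :=
        Nat.add_le_add_right (Nat.mul_le_mul_left _ h3) _
    _ = _ := by ring

/-- the cost in the form of `total_time` -/
theorem cost_form (k₁ k₂ n g S : ℕ) :
    mainCost k₁ k₂ n (c.cm * lg n) (6 + c.N g) (c.Q g) S (c.mc g * (c.mc g + 1))
      (adTime (c.ℓ n g) (c.μ n g) (c.mc g)) + 8 ≤
    1008 * (n + 1) + 4 ^ k₁ * (c.cm * lg n + 10) ^ k₁ +
      1008 * (c.N g + 2) * (((6 + c.N g) * (2 * (c.cm * lg n) + 1) + S + 2 * (c.cm * lg n) +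
        10) ^ k₂ + c.cm * lg n) +
      c.Q g * (500 * ((c.mc g + 1) * (c.ℓ n g + c.μ n g + c.mc g + 1) * (c.ℓ n g + 1)) +
        1008 * (c.mc g + 1) ^ 2 * (((6 + c.N g) * (2 * (c.cm * lg n) + 1) + S +
        2 * (c.cm * lg n) + 10) ^ k₂ + c.cm * lg n)) +
      1008 * (((6 + c.N g) * (2 * (c.cm * lg n) + 1) + S + 2 * (c.cm * lg n) +
        10) ^ k₂ + c.cm * lg n) := by
  generalize c.cm * lg n = m
  unfold mainCost
  have hX1 : 1 ≤ ((6 + c.N g) * (2 * m + 1) + S + 2 * m + 10) ^ k₂ :=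
    Nat.one_le_pow _ _ (by omega)
  have hXX : (S + 2 * m + 10) ^ k₂ ≤ ((6 + c.N g) * (2 * m + 1) + S + 2 * m + 10) ^ k₂ :=
    Nat.pow_le_pow_left (by omega) _
  generalize ((6 + c.N g) * (2 * m + 1) + S + 2 * m + 10) ^ k₂ = X at hX1 hXX ⊢
  have t2 : (4 * m + 10) ^ k₁ ≤ 4 ^ k₁ * (m + 10) ^ k₁ := by
    rw [← mul_pow]
    exact Nat.pow_le_pow_left (by omega) _
  have t3 : (6 + c.N g) * (41 * m + 50) ≤ 1008 * (c.N g + 2) * (X + m) := by
    have h1 : (6 + c.N g) * (41 * m + 50) ≤ (3 * (c.N g + 2)) * (50 * (X + m)) :=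
      Nat.mul_le_mul (by omega) (by omega)
    have h2 : (3 * (c.N g + 2)) * (50 * (X + m)) = 150 * ((c.N g + 2) * (X + m)) := by ring
    have h3 : 1008 * (c.N g + 2) * (X + m) = 1008 * ((c.N g + 2) * (X + m)) := by ring
    rw [h3]
    refine h1.trans ?_
    rw [h2]
    exact Nat.mul_le_mul_right _ (by norm_num)
  have t4 : c.Q g * (adTime (c.ℓ n g) (c.μ n g) (c.mc g) +
      (c.mc g * (c.mc g + 1) + 1) * (S + 2 * m + 10) ^ k₂) ≤
      c.Q g * (500 * ((c.mc g + 1) * (c.ℓ n g + c.μ n g + c.mc g + 1) * (c.ℓ n g + 1)) +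
        1008 * (c.mc g + 1) ^ 2 * (X + m)) := by
    apply Nat.mul_le_mul_left
    apply Nat.add_le_add
    · have := H817.adCell_time (l := c.ℓ n g) (g := c.μ n g) (m := c.mc g) rfl
      refine le_trans this (le_of_eq ?_)
      ring
    · apply Nat.mul_le_mul _ (hXX.trans (by omega))
      nlinarith [Nat.zero_le (c.mc g)]
  have t5 : X ≤ 1008 * (X + m) := by omega
  omega

/-- the least admissible exponent `q` -/
def qmin (c : Cst) (k₂ aS : ℕ) : ℕ := c.aN + ((c.aN + 1 + aS + 1) * k₂ + 1) + 4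

theorem cost_sum (c : Cst) {k₂ aS : ℕ} (hq : c.qmin k₂ aS ≤ q) (k₁ CS : ℕ) :
    ∃ δ C : ℝ, 0 < δ ∧ 0 ≤ C ∧ ∀ (x y : List ℕ) (S : ℕ),
      S ≤ CS * (c.K (c.gg q (len2 x y)) * lg (x.length + y.length)) ^ aS →
      (((c.adF q).cost k₁ k₂ x y S + 8 : ℕ) : ℝ) ≤
        C * (((x.length + y.length : ℕ) : ℝ) + 1) ^ (2 - δ) := by
  obtain ⟨δ, C, hδ, hC, h⟩ := c.total_time (q := q) (k := k₂) (aS := c.aN + 1 + aS) hq k₁ c.cm
    (3 * c.dN * (2 * c.cm + 1) + CS) 500 1008 (4 ^ k₁)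
  refine ⟨δ, C, hδ, hC, fun x y S hS => ?_⟩
  have e : (c.adF q).cost k₁ k₂ x y S =
      mainCost k₁ k₂ (x.length + y.length) (c.cm * lg (x.length + y.length))
        (6 + c.N (c.gg q (len2 x y))) (c.Q (c.gg q (len2 x y))) S
        (c.mc (c.gg q (len2 x y)) * (c.mc (c.gg q (len2 x y)) + 1))
        (adTime (c.ℓ (x.length + y.length) (c.gg q (len2 x y)))
          (c.μ (x.length + y.length) (c.gg q (len2 x y))) (c.mc (c.gg q (len2 x y)))) := by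
    unfold AdF.cost
    rw [adF_m]
    rfl
  rw [e]
  exact h _ _ _ _ _ le_rfl (size_all_le hS) le_rfl (cost_form k₁ k₂ _ _ _)

theorem sum_to_max {δ : ℝ} (hδ0 : 0 ≤ δ) (a b : ℕ) :
    (((a + b : ℕ) : ℝ) + 1) ^ (2 - δ) ≤ 4 * (((max a b : ℕ) : ℝ) + 1) ^ (2 - min δ 1) := by
  have h0 : (0 : ℝ) < ((a + b : ℕ) : ℝ) + 1 := by positivity
  have h1 : (1 : ℝ) ≤ ((a + b : ℕ) : ℝ) + 1 := by
    have : (0 : ℝ) ≤ ((a + b : ℕ) : ℝ) := Nat.cast_nonneg _
    linarith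
  have hm0 : (0 : ℝ) ≤ ((max a b : ℕ) : ℝ) + 1 := by positivity
  have hle : ((a + b : ℕ) : ℝ) + 1 ≤ 2 * (((max a b : ℕ) : ℝ) + 1) := by
    have : a + b + 1 ≤ 2 * (max a b + 1) := by
      have := le_max_left a b
      have := le_max_right a b
      omega
    exact_mod_cast this
  have hmin : min δ 1 ≤ 1 := min_le_right _ _
  have hmin0 : 0 ≤ min δ 1 := le_min hδ0 zero_le_one
  have he : (0 : ℝ) ≤ 2 - min δ 1 := by linarith
  calc (((a + b : ℕ) : ℝ) + 1) ^ (2 - δ) ≤ (((a + b : ℕ) : ℝ) + 1) ^ (2 - min δ 1) :=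
        Real.rpow_le_rpow_of_exponent_le h1 (by have := min_le_left δ 1; linarith)
    _ ≤ (2 * (((max a b : ℕ) : ℝ) + 1)) ^ (2 - min δ 1) :=
        Real.rpow_le_rpow h0.le hle he
    _ = 2 ^ (2 - min δ 1) * (((max a b : ℕ) : ℝ) + 1) ^ (2 - min δ 1) :=
        Real.mul_rpow (by norm_num) hm0
    _ ≤ 4 * (((max a b : ℕ) : ℝ) + 1) ^ (2 - min δ 1) := by
        apply mul_le_mul_of_nonneg_right _ (Real.rpow_nonneg hm0 _)
        calc (2 : ℝ) ^ (2 - min δ 1) ≤ 2 ^ (2 : ℝ) :=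
              Real.rpow_le_rpow_of_exponent_le (by norm_num) (by linarith)
          _ = 4 := by norm_num

/-- **The total time** in the form of the final statement. -/
theorem cost_final (c : Cst) {k₂ aS : ℕ} (hq : c.qmin k₂ aS ≤ q) (k₁ CS n0 : ℕ) :
    ∃ δ C : ℝ, 0 < δ ∧ δ ≤ 1 ∧ (∀ (x y : List ℕ) (S : ℕ),
      S ≤ CS * (c.K (c.gg q (len2 x y)) * lg (x.length + y.length)) ^ aS →
      (((c.adF q).cost k₁ k₂ x y S + 8 : ℕ) : ℝ) ≤
        C * (((max x.length y.length : ℕ) : ℝ) + 1) ^ (2 - δ)) ∧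
      ∀ n : ℕ, n < n0 → ((360 * ((n0 + 1) * (2 * n0 + 1)) + 10 : ℕ) : ℝ) ≤
        C * ((n : ℝ) + 1) ^ (2 - δ) := by
  obtain ⟨δ, C, hδ, hC, h⟩ := c.cost_sum hq k₁ CS
  refine ⟨min δ 1, 4 * C + (360 * ((n0 + 1) * (2 * n0 + 1)) + 10 : ℕ), lt_min hδ zero_lt_one,
    min_le_right _ _, fun x y S hS => ?_, fun n _ => ?_⟩
  · refine (h x y S hS).trans ?_
    have h1 := sum_to_max hδ.le x.length y.length
    have h2 : (0 : ℝ) ≤ (((max x.length y.length : ℕ) : ℝ) + 1) ^ (2 - min δ 1) :=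
      Real.rpow_nonneg (by positivity) _
    have h3 := mul_le_mul_of_nonneg_left h1 hC
    have h4 : (0 : ℝ) ≤ ((360 * ((n0 + 1) * (2 * n0 + 1)) + 10 : ℕ) : ℝ) *
        (((max x.length y.length : ℕ) : ℝ) + 1) ^ (2 - min δ 1) :=
      mul_nonneg (Nat.cast_nonneg _) h2
    rw [add_mul]
    linarith
  · have h1 : (1 : ℝ) ≤ ((n : ℝ) + 1) ^ (2 - min δ 1) := by
      apply Real.one_le_rpow
      · have : (0 : ℝ) ≤ n := Nat.cast_nonneg _
        linarith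
      · have := min_le_right δ 1
        linarith
    have h2 : (0 : ℝ) ≤ ((360 * ((n0 + 1) * (2 * n0 + 1)) + 10 : ℕ) : ℝ) := Nat.cast_nonneg _
    calc ((360 * ((n0 + 1) * (2 * n0 + 1)) + 10 : ℕ) : ℝ) =
          ((360 * ((n0 + 1) * (2 * n0 + 1)) + 10 : ℕ) : ℝ) * 1 := (mul_one _).symm
      _ ≤ (4 * C + ((360 * ((n0 + 1) * (2 * n0 + 1)) + 10 : ℕ) : ℝ)) *
          ((n : ℝ) + 1) ^ (2 - min δ 1) :=
        mul_le_mul (by linarith) h1 zero_le_one (by linarith)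

end Cst

end Vale.Agent.P315.H527
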