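import Vale.Agent.P315.H527.Cost
import Vale.Agent.P315.Q.M1Link

/-!
# The constants of the concrete family

`famCst m k h w C0` : the constants of `C.fam m k cd`; all equations with the numbers of the family
and of the strategy hold by definition.
-/

set_option autoImplicit false

namespace Vale.Agent.P315.H527

open Vale.Agent.P315.H809 Vale.Agent.P315.RAM Vale.Agent.P315.C

/-- The constants of the family. -/
def famCst (m k h w C0 : ℕ) (hm : 1 ≤ m) (hh : 1 ≤ h) (hw : 2 * h ≤ w) (hC0 : 1 ≤ C0) : Cst where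
  B := 2 ^ m
  M := 2 ^ (20 * m)
  C0 := C0
  h := h
  wm := w
  ms := 4 * m
  kc := k
  mt := 50 * m
  mm := m
  mp := 54 * m
  hB := Nat.le_self_pow (by omega) 2
  hM := Nat.le_self_pow (by omega) 2
  hC0 := hC0
  hh := hh
  hwm := hw

section
variable {m k h w C0 : ℕ} (hm : 1 ≤ m) (hh : 1 ≤ h) (hw : 2 * h ≤ w) (hC0 : 1 ≤ C0)

theorem famCst_L (q n : ℕ) : (famCst m k h w C0 hm hh hw hC0).L (lev0 (2 ^ (20 * m)) q n) =
    H809.lev (2 ^ m) (2 ^ (20 * m)) q n := rfl

theorem famCst_S (q n : ℕ) : (famCst m k h w C0 hm hh hw hC0).S (lev0 (2 ^ (20 * m)) q n) =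
    scalN (2 ^ m) (2 ^ (20 * m)) q n := rfl

theorem famCst_K (g : ℕ) : (famCst m k h w C0 hm hh hw hC0).K g =
    (2 ^ (20 * m)) ^ (famCst m k h w C0 hm hh hw hC0).L g := rfl

theorem famCst_mc (g : ℕ) : (famCst m k h w C0 hm hh hw hC0).mc g =
    2 ^ ((famCst m k h w C0 hm hh hw hC0).L g / w) := rfl

theorem famCst_e (cd l μ B g : ℕ) : (famCst m k h w C0 hm hh hw hC0).e g =
    (fam m k cd ((famCst m k h w C0 hm hh hw hC0).L g)
      ((famCst m k h w C0 hm hh hw hC0).S g) l μ B).q := rfl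

theorem famCst_Nu (cd l μ B g : ℕ) : (famCst m k h w C0 hm hh hw hC0).Nu g =
    H659.nSeed ((famCst m k h w C0 hm hh hw hC0).L g) (2 ^ (20 * m))
      ((famCst m k h w C0 hm hh hw hC0).S g + 1)
      (fam m k cd ((famCst m k h w C0 hm hh hw hC0).L g)
        ((famCst m k h w C0 hm hh hw hC0).S g) l μ B).Cn := rfl

theorem famCst_pad (g : ℕ) : (famCst m k h w C0 hm hh hw hC0).pad g =
    Q.M1.padM m k ((famCst m k h w C0 hm hh hw hC0).L g)
      ((famCst m k h w C0 hm hh hw hC0).S g) ((famCst m k h w C0 hm hh hw hC0).mc g) := rfl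

end

end Vale.Agent.P315.H527
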