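import Vale.Agent.P315.H527.FamCst
import Vale.Agent.P315.Q.M1Run

/-!
# The size of the states of the strategy of the additive theorem
-/

set_option autoImplicit false

namespace Vale.Agent.P315.H527

open Vale.Agent.P315.H809 Vale.Agent.P315.RAM Vale.Agent.P315.C Vale.Agent.P315.Q.M1

namespace Cst

variable (c : Cst) {q : ℕ}

/-- the exponent of the size of the states -/
def aSt : ℕ := c.aN + 4

/-- the constant of the size of the states -/
def CSt : ℕ :=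
  6 * c.dN * (2 * c.cm + 1) + 8 + (2 * c.C0 + 1) * (104 + 8 * (2 * c.cm + 1) + 6) +
    2 * (2 * c.cm + 1) + 3

/-- **Sizes.** `m1Sz` with the length of the feed, `K` rows, `mc` mesh steps, `cm * lg n` bits and
`Q` rounds. -/
theorem m1Sz_le (n g : ℕ) :
    m1Sz (6 + c.N g) (c.K g) (c.mc g) (c.cm * lg n) (c.Q g) ≤
      c.CSt * (c.K g * lg n) ^ c.aSt := by
  have hK := K_pos (c := c) g
  have hl := lg_pos n
  have hKl : 1 ≤ c.K g * lg n := Nat.mul_pos hK hl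
  have hKle : c.K g ≤ c.K g * lg n := Nat.le_mul_of_pos_right _ hl
  have hlle : lg n ≤ c.K g * lg n := Nat.le_mul_of_pos_left _ hK
  have hN : 6 + c.N g ≤ 3 * c.dN * c.K g ^ c.aN := by
    have := N_add_two_le (c := c) g
    calc 6 + c.N g ≤ 3 * (c.N g + 2) := by omega
      _ ≤ 3 * (c.dN * c.K g ^ c.aN) := Nat.mul_le_mul_left _ this
      _ = _ := by ring
  have hb : 2 * (c.cm * lg n) + 1 ≤ (2 * c.cm + 1) * lg n := by
    have : (2 * c.cm + 1) * lg n = 2 * (c.cm * lg n) + lg n := by ring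
    omega
  have ha : c.mc g * (c.mc g + 1) ≤ 2 * c.K g := by
    have h1 := mc_sq_le (c := c) g
    have h2 := mc_pos (c := c) g
    nlinarith
  have hQ := Q_le (c := c) g
  have hK2 : 1 ≤ c.K g ^ 2 := Nat.one_le_pow _ _ hK
  have hQ1 : c.Q g + 1 ≤ (2 * c.C0 + 1) * c.K g ^ 2 := by
    rw [Nat.add_mul]; omega
  set Z := (c.K g * lg n) ^ c.aSt with hZ
  have z0 : 1 ≤ Z := Nat.one_le_pow _ _ hKl
  have zN : c.K g ^ c.aN * lg n ≤ Z := by
    calc c.K g ^ c.aN * lg n ≤ (c.K g * lg n) ^ c.aN * (c.K g * lg n) ^ 1 := by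
          apply Nat.mul_le_mul
          · exact Nat.pow_le_pow_left hKle _
          · rw [pow_one]; exact hlle
      _ = (c.K g * lg n) ^ (c.aN + 1) := (pow_add _ _ _).symm
      _ ≤ Z := Nat.pow_le_pow_right hKl (by unfold aSt; omega)
  have z4 : c.K g ^ 4 ≤ Z :=
    (Nat.pow_le_pow_left hKle 4).trans (Nat.pow_le_pow_right hKl (by unfold aSt; omega))
  have z2 : c.K g ^ 2 ≤ Z :=
    (Nat.pow_le_pow_left hKle 2).trans (Nat.pow_le_pow_right hKl (by unfold aSt; omega))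
  have z3 : c.K g ^ 3 * lg n ≤ Z := by
    calc c.K g ^ 3 * lg n ≤ (c.K g * lg n) ^ 3 * (c.K g * lg n) ^ 1 := by
          apply Nat.mul_le_mul
          · exact Nat.pow_le_pow_left hKle _
          · rw [pow_one]; exact hlle
      _ = (c.K g * lg n) ^ 4 := (pow_add _ _ _).symm
      _ ≤ Z := Nat.pow_le_pow_right hKl (by unfold aSt; omega)
  have z1 : c.K g * lg n ≤ Z := by
    calc c.K g * lg n = (c.K g * lg n) ^ 1 := (pow_one _).symm
      _ ≤ Z := Nat.pow_le_pow_right hKl (by unfold aSt; omega)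
  have t1 : 2 * ((6 + c.N g) * (2 * (c.cm * lg n) + 1)) ≤ 6 * c.dN * (2 * c.cm + 1) * Z := by
    calc 2 * ((6 + c.N g) * (2 * (c.cm * lg n) + 1))
        ≤ 2 * ((3 * c.dN * c.K g ^ c.aN) * ((2 * c.cm + 1) * lg n)) :=
          Nat.mul_le_mul_left _ (Nat.mul_le_mul hN hb)
      _ = 6 * c.dN * (2 * c.cm + 1) * (c.K g ^ c.aN * lg n) := by ring
      _ ≤ _ := Nat.mul_le_mul_left _ zN
  have t2 : 2 * (4 * c.K g ^ 2) ≤ 8 * Z := by omega
  have ta : c.mc g * (c.mc g + 1) * (2 * (c.cm * lg n) + 1) ≤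
      2 * (2 * c.cm + 1) * (c.K g * lg n) := by
    calc c.mc g * (c.mc g + 1) * (2 * (c.cm * lg n) + 1)
        ≤ (2 * c.K g) * ((2 * c.cm + 1) * lg n) := Nat.mul_le_mul ha hb
      _ = _ := by ring
  have t3 : 2 * ((c.Q g + 1) * (2 * (2 * (12 * c.K g ^ 2 + 1) +
      c.mc g * (c.mc g + 1) * (2 * (c.cm * lg n) + 1) + 1) + 1)) ≤
      (2 * c.C0 + 1) * (104 + 8 * (2 * c.cm + 1) + 6) * Z := by
    calc 2 * ((c.Q g + 1) * (2 * (2 * (12 * c.K g ^ 2 + 1) +
          c.mc g * (c.mc g + 1) * (2 * (c.cm * lg n) + 1) + 1) + 1))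
        ≤ 2 * (((2 * c.C0 + 1) * c.K g ^ 2) * (2 * (2 * (13 * c.K g ^ 2) +
          2 * (2 * c.cm + 1) * (c.K g * lg n) + 1) + 1)) := by
          apply Nat.mul_le_mul_left
          apply Nat.mul_le_mul hQ1
          omega
      _ = (2 * c.C0 + 1) * (104 * c.K g ^ 4 + 8 * (2 * c.cm + 1) * (c.K g ^ 3 * lg n) +
          6 * c.K g ^ 2) := by ring
      _ ≤ (2 * c.C0 + 1) * (104 * Z + 8 * (2 * c.cm + 1) * Z + 6 * Z) := by
          apply Nat.mul_le_mul_left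
          exact Nat.add_le_add (Nat.add_le_add (Nat.mul_le_mul_left _ z4)
            (Nat.mul_le_mul_left _ z3)) (Nat.mul_le_mul_left _ z2)
      _ = _ := by ring
  have t4 : c.mc g * (c.mc g + 1) * (2 * (c.cm * lg n) + 1) ≤ 2 * (2 * c.cm + 1) * Z :=
    ta.trans (Nat.mul_le_mul_left _ z1)
  unfold m1Sz Q.stB CSt
  calc 2 * ((6 + c.N g) * (2 * (c.cm * lg n) + 1)) + 2 * (4 * c.K g ^ 2) +
      2 * ((c.Q g + 1) * (2 * (2 * (12 * c.K g ^ 2 + 1) +
        c.mc g * (c.mc g + 1) * (2 * (c.cm * lg n) + 1) + 1) + 1)) +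
      c.mc g * (c.mc g + 1) * (2 * (c.cm * lg n) + 1) + 3
      ≤ 6 * c.dN * (2 * c.cm + 1) * Z + 8 * Z +
        (2 * c.C0 + 1) * (104 + 8 * (2 * c.cm + 1) + 6) * Z + 2 * (2 * c.cm + 1) * Z + 3 * Z :=
        Nat.add_le_add (Nat.add_le_add (Nat.add_le_add (Nat.add_le_add t1 t2) t3) t4) (by omega)
    _ = _ := by ring

/-- **The output fits into the registers.** -/
theorem out_fits (hq : 1 ≤ q) (x y : List ℕ) (CS aS CV aV : ℕ) :
    5 * (c.K (c.gg q (len2 x y)) * c.ℓ (x.length + y.length) (c.gg q (len2 x y))) +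
      10 * (x.length + y.length + 2) ≤
      (max x.length y.length + 2) ^ c.c1 CS aS CV aV := by
  have hgg : c.gg q (len2 x y) = lev0 c.M q (x.length + y.length) := rfl
  rw [hgg]
  refine pow_le_R (a := 8) (by omega) ?_
  set n := x.length + y.length with hn
  have hK : c.K (lev0 c.M q n) ≤ n + 1 := K_le hq n
  have h1 := K_mul_ℓ_le' (c := c) n (lev0 c.M q n)
  have h2 : c.K (lev0 c.M q n) ^ 2 ≤ (n + 1) ^ 2 := Nat.pow_le_pow_left hK 2
  have h3 : n + (n + 1) ^ 2 ≤ (n + 2) ^ 2 := by nlinarith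
  have h4 : 5 * (n + 2) ^ 2 + 10 * (n + 2) ≤ 15 * (n + 2) ^ 2 := by nlinarith
  have h5 : 15 * (n + 2) ^ 2 ≤ (n + 2) ^ 8 := by
    have : (n + 2) ^ 8 = (n + 2) ^ 6 * (n + 2) ^ 2 := by ring
    rw [this]
    apply Nat.mul_le_mul_right
    calc 15 ≤ 2 ^ 6 := by norm_num
      _ ≤ (n + 2) ^ 6 := Nat.pow_le_pow_left (by omega) _
  omega

end Cst

end Vale.Agent.P315.H527
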