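import Vale.Agent.P315.H527.ParPT

/-!
# The parameters of the one pass algorithm

Functions of `n = |x| + |y|` and of `g` = the number of levels before rounding. The strategy gets
`g` from the feed, so it does not depend on the exponent `q`; the main program uses
`g = lev0 M q n`. All functions are computable in polynomial time (`PT_*`); the file also contains
the inequalities between them.
-/

set_option autoImplicit false

namespace Vale.Agent.P315.H527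

open Vale.Agent.Lib.PolyTime Vale.Agent.P315.H809

/-- The constants of the algorithm (they depend on `ε` only). -/
structure Cst where
  /-- base for the number of scales -/
  B : ℕ
  /-- branching -/
  M : ℕ
  /-- the number of rounds is `C0 * (K ^ 2 / 2 ^ (L / h) + 1)` -/
  C0 : ℕ
  /-- see `C0` -/
  h : ℕ
  /-- the mesh units per row are `2 ^ (L / wm)` -/
  wm : ℕ
  /-- number of coins per level and scale is `2 ^ (ms * 2 ^ S)` -/
  ms : ℕ
  /-- the seeds are below `2 ^ max kc (mt * 2 ^ S)` -/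
  kc : ℕ
  /-- see `kc` -/
  mt : ℕ
  /-- the seeds are used as a clock: `pad` -/
  mm : ℕ
  /-- see `pad` -/
  mp : ℕ
  hB : 2 ≤ B
  hM : 2 ≤ M
  hC0 : 1 ≤ C0
  hh : 1 ≤ h
  hwm : 2 * h ≤ wm

namespace Cst

variable (c : Cst)

/-- number of scales -/
def S (g : ℕ) : ℕ := scal c.B g

/-- number of levels -/
def L (g : ℕ) : ℕ := 2 ^ c.S g * (g / 2 ^ c.S g)

/-- number of rows -/
def K (g : ℕ) : ℕ := c.M ^ c.L g

/-- mesh units per row -/
def mc (g : ℕ) : ℕ := 2 ^ (c.L g / c.wm)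

/-- mesh -/
def μ (n g : ℕ) : ℕ := n / (c.K g * c.mc g) + 1

/-- length of a row -/
def ℓ (n g : ℕ) : ℕ := c.mc g * c.μ n g

/-- base of the code of the queries: the cell `(i, a)` has the code `i * D + a` -/
def D (g : ℕ) : ℕ := 4 * c.K g

/-- number of rounds -/
def Q (g : ℕ) : ℕ := c.C0 * (c.K g ^ 2 / 2 ^ (c.L g / c.h) + 1)

/-- number of coins per level and scale -/
def Cn (g : ℕ) : ℕ := 2 ^ (c.ms * 2 ^ c.S g)

/-- number of seeds that are used -/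
def Nu (g : ℕ) : ℕ := (c.L g + 1) * c.M + (c.L g + 1) * (c.S g + 1) * c.Cn g

/-- the length that the strategy wants -/
def pad (g : ℕ) : ℕ :=
  8 * c.K g * (c.mc g + 1) + 2 ^ c.kc * c.L g + 2 * (c.L g + 2 ^ c.S g + 16 ^ c.S g * c.mm ^ 2) +
    20 + 2 ^ (c.mp * 2 ^ c.S g + 12)

/-- number of seeds -/
def N (g : ℕ) : ℕ := c.Nu g + c.pad g

/-- the seeds are uniform below this power of two -/
def e (g : ℕ) : ℕ := 2 ^ max c.kc (c.mt * 2 ^ c.S g)

/-! ### Levels and scales -/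

variable {c}

theorem S_lev0 (q n : ℕ) : c.S (lev0 c.M q n) = scalN c.B c.M q n := rfl

theorem L_lev0 (q n : ℕ) : c.L (lev0 c.M q n) = lev c.B c.M q n := rfl

theorem wm_pos (c : Cst) : 1 ≤ c.wm := by have := c.hwm; have := c.hh; omega

theorem K_pos (g : ℕ) : 1 ≤ c.K g := Nat.one_le_pow _ _ (by have := c.hM; omega)

theorem mc_pos (g : ℕ) : 1 ≤ c.mc g := Nat.one_le_two_pow

theorem two_pow_S_dvd (g : ℕ) : 2 ^ c.S g ∣ c.L g := Dvd.intro _ rfl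

theorem L_le (g : ℕ) : c.L g ≤ g := Nat.mul_div_le _ _

theorem g_lt (g : ℕ) : g < c.L g + 2 ^ c.S g := by
  have h : 0 < 2 ^ c.S g := by positivity
  have := Nat.lt_mul_div_succ g h
  unfold L
  rw [mul_add, mul_one] at this
  exact this

theorem L_cube (g : ℕ) : (c.L g + 2) ^ 3 ≤ c.B ^ 2 ^ c.S g :=
  (Nat.pow_le_pow_left (Nat.add_le_add_right (L_le g) 2) 3).trans (le_pow_scal c.hB _)

theorem L_lt_K (g : ℕ) : c.L g < c.K g :=
  lt_of_lt_of_le Nat.lt_two_pow_self (Nat.pow_le_pow_left c.hM _)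

theorem two_pow_L_le (g : ℕ) : 2 ^ c.L g ≤ c.K g := Nat.pow_le_pow_left c.hM _

theorem two_pow_S_le' (g : ℕ) : 2 ^ c.S g ≤ 6 * (Nat.log 2 (g + 2) + 1) :=
  two_pow_scal_le c.hB g

theorem two_pow_S_le_L (g : ℕ) (h : 0 < c.L g) : 2 ^ c.S g ≤ c.L g :=
  Nat.le_of_dvd h (two_pow_S_dvd g)

theorem g_lt_two_mul (g : ℕ) (h : 0 < c.L g) : g < 2 * c.L g := by
  have h1 := two_pow_S_le_L g h
  have h2 := g_lt (c := c) g
  omega

theorem two_pow_S_le (g : ℕ) (h : 0 < c.L g) : 2 ^ c.S g ≤ 6 * (Nat.log 2 (c.L g + 2) + 2) := by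
  refine (two_pow_S_le' g).trans ?_
  have h1 := g_lt_two_mul g h
  have h2 : Nat.log 2 (g + 2) ≤ Nat.log 2 (c.L g + 2) + 1 := by
    rw [← Nat.log_mul_base (by norm_num) (by omega)]
    exact Nat.log_mono_right (by omega)
  omega

theorem six_mul_le (k : ℕ) : 2 * (6 * (k + 1)) ≤ 2 ^ k + 44 := by
  rcases Nat.lt_or_ge k 5 with h | h
  · interval_cases k <;> norm_num
  · induction k, h using Nat.le_induction with
    | base => norm_num
    | succ k hk ih =>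
      rw [pow_succ]
      have : 2 ^ 5 ≤ 2 ^ k := Nat.pow_le_pow_right (by norm_num) hk
      norm_num at this
      omega

theorem g_le (g : ℕ) : g + 2 ≤ 2 * c.L g + 48 := by
  have h1 := g_lt (c := c) g
  have h2 := two_pow_S_le' (c := c) g
  have h3 := six_mul_le (Nat.log 2 (g + 2))
  have h4 := Nat.pow_log_le_self 2 (x := g + 2) (by omega)
  omega

theorem g_le_K (g : ℕ) : g + 2 ≤ 48 * c.K g := by
  have h1 := g_le (c := c) g
  have h2 := L_lt_K (c := c) g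
  omega

theorem two_pow_S_le_K (g : ℕ) : 2 ^ c.S g ≤ 288 * c.K g := by
  have h2 := two_pow_S_le' (c := c) g
  have h3 := g_le_K (c := c) g
  have h4 : Nat.log 2 (g + 2) < g + 2 := Nat.log_lt_self 2 (by omega)
  omega

theorem S_succ_le (g : ℕ) : c.S g + 1 ≤ 288 * c.K g :=
  (Nat.lt_two_pow_self (n := c.S g)).trans_le (two_pow_S_le_K g)

theorem S_le (g : ℕ) : c.S g ≤ 288 * c.K g := (Nat.le_succ _).trans (S_succ_le g)

theorem two_pow_two_pow_S_le (g : ℕ) : 2 ^ 2 ^ c.S g ≤ (96 * c.K g) ^ 6 := by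
  calc 2 ^ 2 ^ c.S g ≤ 2 ^ (6 * (Nat.log 2 (g + 2) + 1)) :=
        Nat.pow_le_pow_right (by norm_num) (two_pow_S_le' g)
    _ = (2 ^ Nat.log 2 (g + 2) * 2) ^ 6 := by rw [← pow_succ, ← pow_mul, Nat.mul_comm]
    _ ≤ (96 * c.K g) ^ 6 := by
        apply Nat.pow_le_pow_left
        have h1 := Nat.pow_log_le_self 2 (x := g + 2) (by omega)
        have h2 := g_le_K (c := c) g
        omega

theorem Cn_pos (g : ℕ) : 1 ≤ c.Cn g := Nat.one_le_two_pow

theorem Cn_le (g : ℕ) : c.Cn g ≤ (96 * c.K g) ^ (6 * c.ms) := by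
  unfold Cn
  rw [Nat.mul_comm, pow_mul, pow_mul]
  exact Nat.pow_le_pow_left (two_pow_two_pow_S_le g) _

theorem Nu_le (g : ℕ) :
    c.Nu g ≤ (c.M + 288 * 96 ^ (6 * c.ms)) * c.K g ^ (6 * c.ms + 2) := by
  have h1 := L_lt_K (c := c) g
  have h2 := S_succ_le (c := c) g
  have h3 := Cn_le (c := c) g
  have hK := K_pos (c := c) g
  have h4 : c.K g ≤ c.K g ^ (6 * c.ms + 2) := by
    calc c.K g = c.K g ^ 1 := (pow_one _).symm
      _ ≤ _ := Nat.pow_le_pow_right hK (by omega)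
  unfold Nu
  calc (c.L g + 1) * c.M + (c.L g + 1) * (c.S g + 1) * c.Cn g
      ≤ c.K g ^ (6 * c.ms + 2) * c.M +
        c.K g * (288 * c.K g) * (96 * c.K g) ^ (6 * c.ms) := by
        apply Nat.add_le_add
        · exact Nat.mul_le_mul_right _ (by omega)
        · exact Nat.mul_le_mul (Nat.mul_le_mul h1 h2) h3
    _ = _ := by rw [mul_pow]; ring

theorem Nu_le_N (g : ℕ) : c.Nu g ≤ c.N g := Nat.le_add_right _ _

theorem pad_le_N (g : ℕ) : c.pad g ≤ c.N g := Nat.le_add_left _ _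

theorem two_pow_mul_S_le (k g : ℕ) : 2 ^ (k * 2 ^ c.S g) ≤ (96 * c.K g) ^ (6 * k) := by
  rw [Nat.mul_comm, pow_mul, pow_mul]
  exact Nat.pow_le_pow_left (two_pow_two_pow_S_le g) _

theorem mc_le_K' (g : ℕ) : c.mc g ≤ c.K g := by
  refine le_trans ?_ (two_pow_L_le g)
  exact Nat.pow_le_pow_right (by norm_num) (Nat.div_le_self _ _)

theorem K_lt_N (g : ℕ) : c.K g < c.N g := by
  have hK := K_pos (c := c) g
  have h1 : 8 * c.K g ≤ 8 * c.K g * (c.mc g + 1) := Nat.le_mul_of_pos_right _ (Nat.succ_pos _)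
  have h2 := pad_le_N (c := c) g
  have h3 : 8 * c.K g * (c.mc g + 1) ≤ c.pad g := by
    unfold pad
    generalize 8 * c.K g * (c.mc g + 1) = a
    generalize 2 ^ c.kc * c.L g = b
    generalize 16 ^ c.S g * c.mm ^ 2 = d
    generalize 2 ^ (c.mp * 2 ^ c.S g + 12) = e
    generalize 2 ^ c.S g = f
    omega
  omega

/-- the constant in the bound for `pad` -/
def dP (c : Cst) : ℕ :=
  16 + 2 ^ c.kc + 2 * (1 + 288 + 288 ^ 4 * c.mm ^ 2) + 20 + 2 ^ 12 * 96 ^ (6 * c.mp)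

theorem pad_le (g : ℕ) : c.pad g ≤ c.dP * c.K g ^ (4 + 6 * c.mp) := by
  have hK := K_pos (c := c) g
  have hL := L_lt_K (c := c) g
  have hmc := mc_le_K' (c := c) g
  have hS := two_pow_S_le_K (c := c) g
  set X := c.K g ^ (4 + 6 * c.mp) with hX
  have e1 : c.K g ≤ X := by
    calc c.K g = c.K g ^ 1 := (pow_one _).symm
      _ ≤ X := Nat.pow_le_pow_right hK (by omega)
  have e2 : c.K g ^ 2 ≤ X := Nat.pow_le_pow_right hK (by omega)
  have e4 : c.K g ^ 4 ≤ X := Nat.pow_le_pow_right hK (by omega)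
  have e0 : 1 ≤ X := Nat.one_le_pow _ _ hK
  have t1 : 8 * c.K g * (c.mc g + 1) ≤ 16 * X := by
    calc 8 * c.K g * (c.mc g + 1) ≤ 8 * c.K g * (2 * c.K g) :=
          Nat.mul_le_mul_left _ (by omega)
      _ = 16 * c.K g ^ 2 := by ring
      _ ≤ _ := Nat.mul_le_mul_left _ e2
  have t2 : 2 ^ c.kc * c.L g ≤ 2 ^ c.kc * X := Nat.mul_le_mul_left _ (by omega)
  have t3 : 16 ^ c.S g * c.mm ^ 2 ≤ 288 ^ 4 * c.mm ^ 2 * X := by
    have h1 : 16 ^ c.S g = (2 ^ c.S g) ^ 4 := by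
      rw [← pow_mul, Nat.mul_comm, pow_mul]
      norm_num
    have h2 : 16 ^ c.S g ≤ 288 ^ 4 * c.K g ^ 4 := by
      rw [h1, ← mul_pow]
      exact Nat.pow_le_pow_left hS 4
    calc 16 ^ c.S g * c.mm ^ 2 ≤ (288 ^ 4 * X) * c.mm ^ 2 :=
          Nat.mul_le_mul_right _ (h2.trans (Nat.mul_le_mul_left _ e4))
      _ = _ := by ring
  have t4 : 2 ^ (c.mp * 2 ^ c.S g + 12) ≤ 2 ^ 12 * 96 ^ (6 * c.mp) * X := by
    rw [pow_add]
    calc 2 ^ (c.mp * 2 ^ c.S g) * 2 ^ 12 ≤ (96 * c.K g) ^ (6 * c.mp) * 2 ^ 12 :=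
          Nat.mul_le_mul_right _ (two_pow_mul_S_le _ _)
      _ = 2 ^ 12 * 96 ^ (6 * c.mp) * c.K g ^ (6 * c.mp) := by rw [mul_pow]; ring
      _ ≤ _ := Nat.mul_le_mul_left _ (Nat.pow_le_pow_right hK (by omega))
  have t5 : 2 ^ c.S g ≤ 288 * X := by omega
  unfold pad dP
  calc 8 * c.K g * (c.mc g + 1) + 2 ^ c.kc * c.L g +
      2 * (c.L g + 2 ^ c.S g + 16 ^ c.S g * c.mm ^ 2) + 20 + 2 ^ (c.mp * 2 ^ c.S g + 12)
      ≤ 16 * X + 2 ^ c.kc * X + 2 * (1 * X + 288 * X + 288 ^ 4 * c.mm ^ 2 * X) + 20 * X +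
        2 ^ 12 * 96 ^ (6 * c.mp) * X := by
        refine Nat.add_le_add (Nat.add_le_add (Nat.add_le_add (Nat.add_le_add t1 t2)
          (Nat.mul_le_mul_left _ (Nat.add_le_add (Nat.add_le_add ?_ t5) t3))) ?_) t4
        · omega
        · omega
    _ = _ := by ring

/-- the constant in the bound for the number of seeds -/
def dN (c : Cst) : ℕ := c.M + 288 * 96 ^ (6 * c.ms) + c.dP + 2

/-- the exponent in the bound for the number of seeds -/
def aN (c : Cst) : ℕ := 6 * c.ms + 2 + (4 + 6 * c.mp)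

theorem N_add_two_le (g : ℕ) : c.N g + 2 ≤ c.dN * c.K g ^ c.aN := by
  have hK := K_pos (c := c) g
  have h1 := Nu_le (c := c) g
  have h2 := pad_le (c := c) g
  have h3 : c.K g ^ (6 * c.ms + 2) ≤ c.K g ^ c.aN :=
    Nat.pow_le_pow_right hK (by unfold aN; omega)
  have h4 : c.K g ^ (4 + 6 * c.mp) ≤ c.K g ^ c.aN :=
    Nat.pow_le_pow_right hK (by unfold aN; omega)
  have h5 : 1 ≤ c.K g ^ c.aN := Nat.one_le_pow _ _ hK
  unfold N
  calc c.Nu g + c.pad g + 2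
      ≤ (c.M + 288 * 96 ^ (6 * c.ms)) * c.K g ^ c.aN + c.dP * c.K g ^ c.aN +
        2 * c.K g ^ c.aN := by
        refine Nat.add_le_add (Nat.add_le_add ?_ ?_) (by omega)
        · exact h1.trans (Nat.mul_le_mul_left _ h3)
        · exact h2.trans (Nat.mul_le_mul_left _ h4)
    _ = _ := by unfold dN; ring

theorem e_pos (g : ℕ) : 1 ≤ c.e g := Nat.one_le_two_pow

theorem e_le (g : ℕ) : c.e g ≤ 2 ^ c.kc * (96 * c.K g) ^ (6 * c.mt) := by
  unfold e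
  calc 2 ^ max c.kc (c.mt * 2 ^ c.S g) ≤ 2 ^ (c.kc + c.mt * 2 ^ c.S g) :=
        Nat.pow_le_pow_right (by norm_num) (by omega)
    _ = 2 ^ c.kc * (2 ^ 2 ^ c.S g) ^ c.mt := by
        rw [pow_add, Nat.mul_comm c.mt, pow_mul]
    _ ≤ _ := by
        rw [pow_mul]
        exact Nat.mul_le_mul_left _ (Nat.pow_le_pow_left (two_pow_two_pow_S_le g) _)

/-! ### Mesh and rows -/

theorem mc_sq_le (g : ℕ) : c.mc g ^ 2 ≤ c.K g := by
  refine le_trans ?_ (two_pow_L_le g)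
  unfold mc
  rw [← pow_mul]
  apply Nat.pow_le_pow_right (by norm_num)
  have h2 := Nat.div_mul_le_self (c.L g) c.wm
  have h3 : c.L g / c.wm * 2 ≤ c.L g / c.wm * c.wm :=
    Nat.mul_le_mul_left _ (by have := c.hh; have := c.hwm; omega)
  omega

theorem mc_le_two_pow_L (g : ℕ) : c.mc g ≤ 2 ^ c.L g :=
  Nat.pow_le_pow_right (by norm_num) (Nat.div_le_self _ _)

theorem mc_le_K (g : ℕ) : c.mc g ≤ c.K g := by
  refine le_trans ?_ (mc_sq_le g)
  rw [pow_two]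
  exact Nat.le_mul_of_pos_left _ (mc_pos g)

theorem μ_pos (n g : ℕ) : 1 ≤ c.μ n g := Nat.le_add_left _ _

theorem ℓ_pos (n g : ℕ) : 1 ≤ c.ℓ n g := Nat.mul_pos (mc_pos g) (μ_pos n g)

theorem μ_dvd_ℓ (n g : ℕ) : c.μ n g ∣ c.ℓ n g := Dvd.intro_left _ rfl

theorem ℓ_div_μ (n g : ℕ) : c.ℓ n g / c.μ n g = c.mc g :=
  Nat.mul_div_cancel _ (μ_pos n g)

theorem μ_le_ℓ (n g : ℕ) : c.μ n g ≤ c.ℓ n g := Nat.le_mul_of_pos_left _ (mc_pos g)

/-- the rows cover the time `n` -/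
theorem lt_K_mul_ℓ (n g : ℕ) : n < c.K g * c.ℓ n g := by
  have h : 0 < c.K g * c.mc g := Nat.mul_pos (K_pos g) (mc_pos g)
  have := Nat.lt_mul_div_succ n h
  unfold ℓ μ
  rw [← Nat.mul_assoc]
  exact this

theorem K_mul_ℓ_le (n g : ℕ) : c.K g * c.ℓ n g ≤ n + c.K g * c.mc g := by
  unfold ℓ μ
  rw [← Nat.mul_assoc, Nat.mul_add, Nat.mul_one]
  exact Nat.add_le_add_right (Nat.mul_div_le _ _) _

theorem K_mul_ℓ_le' (n g : ℕ) : c.K g * c.ℓ n g ≤ n + c.K g ^ 2 := by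
  refine (K_mul_ℓ_le n g).trans (Nat.add_le_add_left ?_ _)
  rw [pow_two]
  exact Nat.mul_le_mul_left _ (mc_le_K g)

theorem ℓ_le_add (n g : ℕ) : c.ℓ n g ≤ n / c.K g + c.mc g := by
  have h : 0 < c.K g := K_pos g
  have h1 := K_mul_ℓ_le (c := c) n g
  by_contra hc
  push Not at hc
  have h2 : c.K g * (n / c.K g + c.mc g + 1) ≤ c.K g * c.ℓ n g := Nat.mul_le_mul_left _ hc
  have h3 : n < c.K g * (n / c.K g + 1) := Nat.lt_mul_div_succ n h
  have h4 : c.K g * (n / c.K g + c.mc g + 1) = c.K g * (n / c.K g + 1) + c.K g * c.mc g := by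
    ring
  omega

theorem K_lt_D (g : ℕ) : c.K g < c.D g := by
  have := K_pos (c := c) g
  unfold D; omega

theorem Q_pos (g : ℕ) : 1 ≤ c.Q g := Nat.mul_pos c.hC0 (Nat.le_add_left _ _)

theorem Q_le (g : ℕ) : c.Q g ≤ 2 * c.C0 * c.K g ^ 2 := by
  unfold Q
  have h1 : c.K g ^ 2 / 2 ^ (c.L g / c.h) ≤ c.K g ^ 2 := Nat.div_le_self _ _
  have h2 : 1 ≤ c.K g ^ 2 := Nat.one_le_pow _ _ (K_pos g)
  calc c.C0 * (c.K g ^ 2 / 2 ^ (c.L g / c.h) + 1) ≤ c.C0 * (2 * c.K g ^ 2) :=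
        Nat.mul_le_mul_left _ (by omega)
    _ = _ := by ring

/-! ### `K` against `n` -/

theorem K_pow_le (q n : ℕ) : c.K (lev0 c.M q n) ^ q ≤ n + 1 := by
  unfold K
  rw [← pow_mul, Nat.mul_comm]
  exact rows_pow_le c.B _ _

theorem K_le {q : ℕ} (hq : 1 ≤ q) (n : ℕ) : c.K (lev0 c.M q n) ≤ n + 1 := by
  calc c.K (lev0 c.M q n) = c.K (lev0 c.M q n) ^ 1 := (pow_one _).symm
    _ ≤ c.K (lev0 c.M q n) ^ q := Nat.pow_le_pow_right (K_pos _) hq
    _ ≤ n + 1 := K_pow_le q n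

theorem K_pow_le_of_le {q a : ℕ} (ha : a ≤ q) (n : ℕ) : c.K (lev0 c.M q n) ^ a ≤ n + 1 :=
  (Nat.pow_le_pow_right (K_pos _) ha).trans (K_pow_le q n)

theorem lt_K_pow {q : ℕ} (hq : 1 ≤ q) (n : ℕ) :
    n + 1 < c.M ^ (q * (c.L (lev0 c.M q n) + 2 ^ c.S (lev0 c.M q n))) :=
  lt_rows_pow c.hM hq _ _

theorem const_mul_pow_le (n a b : ℕ) : 96 ^ a * (n + 2) ^ b ≤ (n + 2) ^ (7 * a + b) := by
  rw [pow_add, pow_mul]
  apply Nat.mul_le_mul_right
  apply Nat.pow_le_pow_left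
  calc 96 ≤ 2 ^ 7 := by norm_num
    _ ≤ (n + 2) ^ 7 := Nat.pow_le_pow_left (by omega) _

/-- the modulus of the seeds is polynomial in `n` -/
theorem e_le' {q : ℕ} (hq : 1 ≤ q) (n : ℕ) :
    c.e (lev0 c.M q n) ≤ (n + 2) ^ (c.kc + 48 * c.mt) := by
  refine (e_le _).trans ?_
  have h1 : 2 ^ c.kc ≤ (n + 2) ^ c.kc := Nat.pow_le_pow_left (by omega) _
  have h2 : c.K (lev0 c.M q n) ≤ n + 2 := (K_le hq n).trans (by omega)
  have h3 : (96 * c.K (lev0 c.M q n)) ^ (6 * c.mt) ≤ (n + 2) ^ (48 * c.mt) := by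
    calc (96 * c.K (lev0 c.M q n)) ^ (6 * c.mt) ≤ (96 * (n + 2)) ^ (6 * c.mt) :=
          Nat.pow_le_pow_left (Nat.mul_le_mul_left _ h2) _
      _ = 96 ^ (6 * c.mt) * (n + 2) ^ (6 * c.mt) := mul_pow _ _ _
      _ ≤ (n + 2) ^ (7 * (6 * c.mt) + 6 * c.mt) := const_mul_pow_le _ _ _
      _ = _ := by congr 1; ring
  rw [pow_add]
  exact Nat.mul_le_mul h1 h3

/-- the number of seeds is polynomial in `n` -/
theorem N_le {q : ℕ} (hq : 1 ≤ q) (n : ℕ) : c.N (lev0 c.M q n) + 2 ≤ c.dN * (n + 2) ^ c.aN :=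
  (N_add_two_le _).trans (Nat.mul_le_mul_left _
    (Nat.pow_le_pow_left ((K_le hq n).trans (by omega)) _))

/-! ### The number of rounds in real form -/

/-- the saving in real form -/
theorem exp_le (g : ℕ) :
    Real.exp (Real.log 2 / c.h * c.L g) ≤ 2 * (2 : ℝ) ^ (c.L g / c.h) := by
  have hh0 : (0 : ℝ) < c.h := by exact_mod_cast c.hh
  have hl2 : 0 < Real.log 2 := Real.log_pos (by norm_num)
  have h2 : (c.L g : ℝ) / c.h ≤ ((c.L g / c.h : ℕ) : ℝ) + 1 := by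
    rw [div_le_iff₀ hh0]
    have : c.L g < (c.L g / c.h + 1) * c.h := by
      have := Nat.lt_mul_div_succ (c.L g) c.hh
      rw [Nat.mul_comm]; exact this
    have h3 : (c.L g : ℝ) < ((c.L g / c.h : ℕ) + 1 : ℝ) * c.h := by exact_mod_cast this
    linarith
  calc Real.exp (Real.log 2 / c.h * c.L g) = Real.exp (Real.log 2 * ((c.L g : ℝ) / c.h)) := by
        congr 1; ring
    _ ≤ Real.exp (Real.log 2 * (((c.L g / c.h : ℕ) : ℝ) + 1)) := by
        apply Real.exp_le_exp.2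
        exact mul_le_mul_of_nonneg_left h2 hl2.le
    _ = 2 * (2 : ℝ) ^ (c.L g / c.h) := by
        rw [← Real.rpow_def_of_pos (by norm_num), Real.rpow_add (by norm_num),
          Real.rpow_natCast, Real.rpow_one]
        ring

/-- upper bound for the number of rounds -/
theorem Q_le_exp (g : ℕ) :
    (c.Q g : ℝ) ≤ 2 * c.C0 * ((c.K g : ℝ) ^ 2 * Real.exp (-(Real.log 2 / c.h * c.L g))) + c.C0 := by
  have h1 := exp_le (c := c) g
  have hp : (0 : ℝ) < (2 : ℝ) ^ (c.L g / c.h) := by positivity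
  have h2 : (((c.K g ^ 2 / 2 ^ (c.L g / c.h) : ℕ)) : ℝ) ≤
      (c.K g : ℝ) ^ 2 / 2 ^ (c.L g / c.h) := by
    have := @Nat.cast_div_le ℝ _ _ _ (c.K g ^ 2) (2 ^ (c.L g / c.h))
    push_cast at this
    exact this
  have h3 : (c.K g : ℝ) ^ 2 / 2 ^ (c.L g / c.h) ≤
      2 * ((c.K g : ℝ) ^ 2 * Real.exp (-(Real.log 2 / c.h * c.L g))) := by
    rw [Real.exp_neg, div_le_iff₀ hp]
    have h4 : 0 < Real.exp (Real.log 2 / c.h * c.L g) := Real.exp_pos _
    have h5 : 2 * ((c.K g : ℝ) ^ 2 * (Real.exp (Real.log 2 / c.h * c.L g))⁻¹) *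
        2 ^ (c.L g / c.h) = (c.K g : ℝ) ^ 2 * ((2 * 2 ^ (c.L g / c.h)) /
          Real.exp (Real.log 2 / c.h * c.L g)) := by
      field_simp
    rw [h5]
    have h6 : (1 : ℝ) ≤ (2 * 2 ^ (c.L g / c.h)) / Real.exp (Real.log 2 / c.h * c.L g) := by
      rw [le_div_iff₀ h4]; linarith
    nlinarith [sq_nonneg (c.K g : ℝ)]
  unfold Q
  push_cast
  have hC : (0 : ℝ) ≤ c.C0 := Nat.cast_nonneg _
  nlinarith

/-- lower bound for the number of rounds -/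
theorem le_Q (g : ℕ) :
    (c.C0 : ℝ) * ((c.K g : ℝ) ^ 2 * Real.exp (-(Real.log 2 / c.h * c.L g))) ≤ c.Q g := by
  have hh0 : (0 : ℝ) < c.h := by exact_mod_cast c.hh
  have hl2 : 0 < Real.log 2 := Real.log_pos (by norm_num)
  have hp : (0 : ℝ) < (2 : ℝ) ^ (c.L g / c.h) := by positivity
  have h1 : Real.exp (-(Real.log 2 / c.h * c.L g)) ≤ 1 / (2 : ℝ) ^ (c.L g / c.h) := by
    rw [Real.exp_neg, ← one_div]
    apply one_div_le_one_div_of_le hp
    rw [← Real.rpow_natCast, Real.rpow_def_of_pos (by norm_num)]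
    apply Real.exp_le_exp.2
    have : ((c.L g / c.h : ℕ) : ℝ) ≤ (c.L g : ℝ) / c.h := Nat.cast_div_le
    calc Real.log 2 * ((c.L g / c.h : ℕ) : ℝ) ≤ Real.log 2 * ((c.L g : ℝ) / c.h) :=
          mul_le_mul_of_nonneg_left this hl2.le
      _ = _ := by ring
  have h2 : (c.K g : ℝ) ^ 2 / 2 ^ (c.L g / c.h) ≤
      (((c.K g ^ 2 / 2 ^ (c.L g / c.h) : ℕ)) : ℝ) + 1 := by
    rw [div_le_iff₀ hp]
    have := Nat.lt_mul_div_succ (c.K g ^ 2) (show 0 < 2 ^ (c.L g / c.h) by positivity)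
    have h3 : ((c.K g ^ 2 : ℕ) : ℝ) <
        ((2 ^ (c.L g / c.h) * (c.K g ^ 2 / 2 ^ (c.L g / c.h) + 1) : ℕ) : ℝ) := by
      exact_mod_cast this
    push_cast at h3 ⊢
    linarith
  unfold Q
  push_cast
  have hC : (0 : ℝ) ≤ c.C0 := Nat.cast_nonneg _
  calc (c.C0 : ℝ) * ((c.K g : ℝ) ^ 2 * Real.exp (-(Real.log 2 / c.h * c.L g)))
      ≤ c.C0 * ((c.K g : ℝ) ^ 2 * (1 / (2 : ℝ) ^ (c.L g / c.h))) :=
        mul_le_mul_of_nonneg_left (mul_le_mul_of_nonneg_left h1 (by positivity)) hC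
    _ = c.C0 * ((c.K g : ℝ) ^ 2 / 2 ^ (c.L g / c.h)) := by ring
    _ ≤ _ := mul_le_mul_of_nonneg_left h2 hC

/-- the number of rounds beats `A * K ^ 2 * exp (-a L)` if `A ≤ C0` and `log 2 / h ≤ a` -/
theorem le_Q_of {A a : ℝ} (hA : A ≤ c.C0) (ha : Real.log 2 / c.h ≤ a) (g : ℕ) :
    A * ((c.K g : ℝ) ^ 2 * Real.exp (-a * c.L g)) ≤ c.Q g := by
  refine le_trans ?_ (le_Q g)
  have h1 : Real.exp (-a * c.L g) ≤ Real.exp (-(Real.log 2 / c.h * c.L g)) := by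
    apply Real.exp_le_exp.2
    have : Real.log 2 / c.h * c.L g ≤ a * c.L g :=
      mul_le_mul_of_nonneg_right ha (Nat.cast_nonneg _)
    linarith
  have hC : (0 : ℝ) ≤ c.C0 := Nat.cast_nonneg _
  calc A * ((c.K g : ℝ) ^ 2 * Real.exp (-a * c.L g))
      ≤ c.C0 * ((c.K g : ℝ) ^ 2 * Real.exp (-a * c.L g)) :=
        mul_le_mul_of_nonneg_right hA (by positivity)
    _ ≤ _ := mul_le_mul_of_nonneg_left (mul_le_mul_of_nonneg_left h1 (by positivity)) hC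

theorem exists_h {a : ℝ} (ha : 0 < a) : ∃ h : ℕ, 1 ≤ h ∧ Real.log 2 / h ≤ a := by
  obtain ⟨h, hh⟩ := exists_nat_ge (Real.log 2 / a)
  refine ⟨h + 1, by omega, ?_⟩
  have h1 : (0 : ℝ) < ((h + 1 : ℕ) : ℝ) := by positivity
  rw [div_le_iff₀ h1]
  rw [div_le_iff₀ ha] at hh
  push_cast
  nlinarith

end Cst

end Vale.Agent.P315.H527
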