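import Mathlib

/-!
# Time arithmetic: from the exponents of the parts to `C * (n + 1) ^ (2 - δ)`
-/

set_option autoImplicit false

namespace Vale.Agent.P315.H527

open Real

/-- Powers of the logarithm are below every power. -/
theorem log_pow_le (A : ℕ) {e : ℝ} (he : 0 < e) :
    ∃ C : ℝ, 0 < C ∧ ∀ n : ℕ, ((Nat.log 2 n : ℝ) + 2) ^ A ≤ C * ((n : ℝ) + 1) ^ e := by
  set f : ℝ := e / (A + 1) with hf
  have hA : (0 : ℝ) < (A : ℝ) + 1 := by positivity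
  have hfp : 0 < f := by positivity
  have hl2 : 0 < Real.log 2 := Real.log_pos (by norm_num)
  set D : ℝ := 1 / (f * Real.log 2) + 2 with hD
  have hDp : 0 < D := by positivity
  refine ⟨D ^ A, by positivity, fun n => ?_⟩
  have hN : (1 : ℝ) ≤ (n : ℝ) + 1 := by
    have : (0 : ℝ) ≤ n := Nat.cast_nonneg n
    linarith
  have h1 : (Nat.log 2 n : ℝ) ≤ Real.log ((n : ℝ) + 1) / Real.log 2 := by
    rcases Nat.eq_zero_or_pos n with h | h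
    · subst h; simp
    · have h2 : 2 ^ Nat.log 2 n ≤ n := Nat.pow_log_le_self 2 (by omega)
      rw [le_div_iff₀ hl2, ← Real.log_pow]
      apply Real.log_le_log (by positivity)
      have : ((2 ^ Nat.log 2 n : ℕ) : ℝ) ≤ (n : ℝ) := by exact_mod_cast h2
      push_cast at this
      linarith
  have h2 : Real.log ((n : ℝ) + 1) ≤ ((n : ℝ) + 1) ^ f / f :=
    Real.log_le_rpow_div (by linarith) hfp
  have h3 : (1 : ℝ) ≤ ((n : ℝ) + 1) ^ f := Real.one_le_rpow hN hfp.le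
  have h4 : (Nat.log 2 n : ℝ) + 2 ≤ D * ((n : ℝ) + 1) ^ f := by
    have h5 : Real.log ((n : ℝ) + 1) / Real.log 2 ≤ (1 / (f * Real.log 2)) * ((n : ℝ) + 1) ^ f := by
      rw [div_le_iff₀ hl2]
      calc Real.log ((n : ℝ) + 1) ≤ ((n : ℝ) + 1) ^ f / f := h2
        _ = 1 / (f * Real.log 2) * ((n : ℝ) + 1) ^ f * Real.log 2 := by
            field_simp
    rw [hD, add_mul]
    linarith
  calc ((Nat.log 2 n : ℝ) + 2) ^ A ≤ (D * ((n : ℝ) + 1) ^ f) ^ A :=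
        pow_le_pow_left₀ (by positivity) h4 A
    _ = D ^ A * (((n : ℝ) + 1) ^ f) ^ A := mul_pow _ _ _
    _ ≤ D ^ A * ((n : ℝ) + 1) ^ e := by
        apply mul_le_mul_of_nonneg_left _ (by positivity)
        rw [← Real.rpow_natCast (((n : ℝ) + 1) ^ f) A, ← Real.rpow_mul (by linarith)]
        apply Real.rpow_le_rpow_of_exponent_le hN
        rw [hf, div_mul_eq_mul_div, div_le_iff₀ hA]
        nlinarith

/-- The base case of all time bounds: a factor `(log n)^A` and three terms. -/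
theorem combine (A : ℕ) {η : ℝ} (hη : 0 < η) (hη2 : η ≤ 1 / 2) {C0 C1 : ℝ} (hC0 : 0 ≤ C0)
    (hC1 : 0 ≤ C1) :
    ∃ C : ℝ, 0 < C ∧ ∀ (n : ℕ) (X : ℝ), X ≤ C1 * ((n : ℝ) + 1) ^ (2 - 2 * η) → ∀ T : ℝ,
      T ≤ C0 * ((Nat.log 2 n : ℝ) + 2) ^ A * (((n : ℝ) + 1) + X) →
      T ≤ C * ((n : ℝ) + 1) ^ (2 - η) := by
  obtain ⟨D, hD, hlog⟩ := log_pow_le A hη
  refine ⟨C0 * D * (1 + C1) + 1, by positivity, fun n X hX T hT => ?_⟩
  have hN : (1 : ℝ) ≤ (n : ℝ) + 1 := by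
    have : (0 : ℝ) ≤ n := Nat.cast_nonneg n
    linarith
  have hN0 : (0 : ℝ) < (n : ℝ) + 1 := by linarith
  have h1 : (n : ℝ) + 1 ≤ ((n : ℝ) + 1) ^ (2 - 2 * η) := by
    calc (n : ℝ) + 1 = ((n : ℝ) + 1) ^ (1 : ℝ) := (Real.rpow_one _).symm
      _ ≤ _ := Real.rpow_le_rpow_of_exponent_le hN (by linarith)
  have h2 : ((n : ℝ) + 1) + X ≤ (1 + C1) * ((n : ℝ) + 1) ^ (2 - 2 * η) := by linarith
  have hL := hlog n
  have hp : (0 : ℝ) < ((n : ℝ) + 1) ^ (2 - 2 * η) := Real.rpow_pos_of_pos hN0 _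
  have hLp : (0 : ℝ) ≤ ((Nat.log 2 n : ℝ) + 2) ^ A := by positivity
  calc T ≤ C0 * ((Nat.log 2 n : ℝ) + 2) ^ A * (((n : ℝ) + 1) + X) := hT
    _ ≤ C0 * ((Nat.log 2 n : ℝ) + 2) ^ A * ((1 + C1) * ((n : ℝ) + 1) ^ (2 - 2 * η)) :=
        mul_le_mul_of_nonneg_left h2 (by positivity)
    _ ≤ C0 * (D * ((n : ℝ) + 1) ^ η) * ((1 + C1) * ((n : ℝ) + 1) ^ (2 - 2 * η)) :=
        mul_le_mul_of_nonneg_right (mul_le_mul_of_nonneg_left hL hC0) (by positivity)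
    _ = C0 * D * (1 + C1) * (((n : ℝ) + 1) ^ η * ((n : ℝ) + 1) ^ (2 - 2 * η)) := by ring
    _ = C0 * D * (1 + C1) * ((n : ℝ) + 1) ^ (2 - η) := by
        rw [← Real.rpow_add hN0]; congr 2; ring
    _ ≤ (C0 * D * (1 + C1) + 1) * ((n : ℝ) + 1) ^ (2 - η) := by
        have : (0 : ℝ) < ((n : ℝ) + 1) ^ (2 - η) := Real.rpow_pos_of_pos hN0 _
        nlinarith

/-- `K ≥ (n + 1) ^ (1 / g) / M` in real form. -/
theorem base_ge {M g n K : ℕ} (hg : 1 ≤ g) (h : n + 1 ≤ (M * K) ^ g) :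
    ((n : ℝ) + 1) ^ (1 / (g : ℝ)) ≤ (M : ℝ) * K := by
  have hg0 : (0 : ℝ) < g := by exact_mod_cast hg
  have h1 : ((n : ℝ) + 1) ≤ ((M : ℝ) * K) ^ g := by exact_mod_cast h
  calc ((n : ℝ) + 1) ^ (1 / (g : ℝ)) ≤ (((M : ℝ) * K) ^ g) ^ (1 / (g : ℝ)) :=
        Real.rpow_le_rpow (by positivity) h1 (by positivity)
    _ = (M : ℝ) * K := by
        rw [← Real.rpow_natCast, ← Real.rpow_mul (by positivity), mul_one_div_cancel hg0.ne',
          Real.rpow_one]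

/-- Total time, the number of reads given as `K ^ (2 - c)`; the overhead exponent `A` may be as
large as `g`. The gain is `δ = c / (2 g)`. -/
theorem time_bound (M g A : ℕ) {c C0 : ℝ} (hg : 1 ≤ g) (hA : A ≤ g) (hc : 0 < c)
    (hc1 : c ≤ 1) (hC0 : 0 ≤ C0) :
    ∃ C : ℝ, 0 < C ∧ ∀ n K : ℕ, 1 ≤ K → K ^ g ≤ n + 1 → n + 1 ≤ (M * K) ^ g → ∀ T : ℝ,
      T ≤ C0 * ((Nat.log 2 n : ℝ) + 2) ^ A *
        (((n : ℝ) + 1) + ((K : ℝ) ^ (2 - c) * (((n : ℝ) + 1) / K) ^ 2 + (K : ℝ) ^ A)) →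
      T ≤ C * ((n : ℝ) + 1) ^ (2 - c / (2 * g)) := by
  have hg0 : (0 : ℝ) < g := by exact_mod_cast hg
  have hg1 : (1 : ℝ) ≤ g := by exact_mod_cast hg
  have hη : 0 < c / (2 * g) := by positivity
  have hη2 : c / (2 * g) ≤ 1 / 2 := by
    rw [div_le_div_iff₀ (by positivity) (by norm_num)]
    nlinarith
  obtain ⟨C, hC, hmain⟩ := combine A hη hη2 hC0 (C1 := (M : ℝ) ^ c + 1) (by positivity)
  refine ⟨C, hC, fun n K hK hKn hnK T hT => hmain n _ ?_ T hT⟩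
  have hN : (1 : ℝ) ≤ (n : ℝ) + 1 := by
    have : (0 : ℝ) ≤ n := Nat.cast_nonneg n
    linarith
  have hN0 : (0 : ℝ) < (n : ℝ) + 1 := by linarith
  have hK0 : (0 : ℝ) < K := by exact_mod_cast hK
  have hb := base_ge hg hnK
  have h1 : (K : ℝ) ^ (2 - c) * (((n : ℝ) + 1) / K) ^ 2 = ((n : ℝ) + 1) ^ 2 * (K : ℝ) ^ (-c) := by
    rw [show (2 : ℝ) - c = 2 + -c by ring, Real.rpow_add hK0, Real.rpow_two]
    field_simp
  have hMK : (0 : ℝ) < (M : ℝ) * K := lt_of_lt_of_le (Real.rpow_pos_of_pos hN0 _) hb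
  have hM0 : (0 : ℝ) < M := by
    by_contra hneg
    have : (M : ℝ) = 0 := le_antisymm (not_lt.mp hneg) (Nat.cast_nonneg M)
    rw [this] at hMK
    simp at hMK
  have h2 : (K : ℝ) ^ (-c) ≤ (M : ℝ) ^ c * ((n : ℝ) + 1) ^ (-(c / g)) := by
    have e1 : ((M : ℝ) * K) ^ (-c) ≤ (((n : ℝ) + 1) ^ (1 / (g : ℝ))) ^ (-c) :=
      Real.rpow_le_rpow_of_nonpos (Real.rpow_pos_of_pos hN0 _) hb (by linarith)
    rw [← Real.rpow_mul hN0.le, show 1 / (g : ℝ) * -c = -(c / g) by ring,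
      Real.mul_rpow hM0.le hK0.le] at e1
    have e2 : (M : ℝ) ^ c * (M : ℝ) ^ (-c) = 1 := by
      rw [← Real.rpow_add hM0]; simp
    have e3 : (0 : ℝ) < (M : ℝ) ^ c := Real.rpow_pos_of_pos hM0 _
    calc (K : ℝ) ^ (-c) = (M : ℝ) ^ c * ((M : ℝ) ^ (-c) * (K : ℝ) ^ (-c)) := by
          rw [← mul_assoc, e2, one_mul]
      _ ≤ _ := mul_le_mul_of_nonneg_left e1 e3.le
  have h3 : (K : ℝ) ^ (2 - c) * (((n : ℝ) + 1) / K) ^ 2 ≤
      (M : ℝ) ^ c * ((n : ℝ) + 1) ^ (2 - 2 * (c / (2 * g))) := by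
    rw [h1]
    calc ((n : ℝ) + 1) ^ 2 * (K : ℝ) ^ (-c) ≤
          ((n : ℝ) + 1) ^ 2 * ((M : ℝ) ^ c * ((n : ℝ) + 1) ^ (-(c / g))) :=
          mul_le_mul_of_nonneg_left h2 (by positivity)
      _ = (M : ℝ) ^ c * (((n : ℝ) + 1) ^ (2 : ℝ) * ((n : ℝ) + 1) ^ (-(c / g))) := by
          rw [Real.rpow_two]; ring
      _ = _ := by
          rw [← Real.rpow_add hN0]
          congr 2
          field_simp
          ring
  have h4 : (K : ℝ) ^ A ≤ ((n : ℝ) + 1) ^ (2 - 2 * (c / (2 * g))) := by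
    have e1 : K ^ A ≤ K ^ g := Nat.pow_le_pow_right hK hA
    have e2 : (K : ℝ) ^ A ≤ (n : ℝ) + 1 := by exact_mod_cast e1.trans hKn
    have e3 : (n : ℝ) + 1 ≤ ((n : ℝ) + 1) ^ (2 - 2 * (c / (2 * g))) := by
      calc (n : ℝ) + 1 = ((n : ℝ) + 1) ^ (1 : ℝ) := (Real.rpow_one _).symm
        _ ≤ _ := Real.rpow_le_rpow_of_exponent_le hN (by linarith)
    exact e2.trans e3
  linarith

/-- The factor `2 ^ (lev / h)` is a power of `K = M ^ lev`. -/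
theorem gain_ge {M h : ℕ} (hM : 2 ≤ M) (hh : 1 ≤ h) (lev : ℕ) :
    ((M ^ lev : ℕ) : ℝ) ^ (Real.log 2 / (h * Real.log M)) ≤ 2 * 2 ^ (lev / h) := by
  have hl2 : 0 < Real.log 2 := Real.log_pos (by norm_num)
  have hM1 : (1 : ℝ) < M := by exact_mod_cast hM
  have hlM : 0 < Real.log M := Real.log_pos hM1
  have hh0 : (0 : ℝ) < h := by exact_mod_cast hh
  have h1 : ((M ^ lev : ℕ) : ℝ) ^ (Real.log 2 / (h * Real.log M)) =
      (2 : ℝ) ^ ((lev : ℝ) / h) := by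
    push_cast
    rw [← Real.rpow_natCast (M : ℝ) lev, ← Real.rpow_mul (by positivity)]
    rw [Real.rpow_def_of_pos (by positivity : (0 : ℝ) < M),
      Real.rpow_def_of_pos (by norm_num : (0 : ℝ) < 2)]
    congr 1
    field_simp
  rw [h1]
  have h2 : (lev : ℝ) / h ≤ ((lev / h : ℕ) : ℝ) + 1 := by
    rw [div_le_iff₀ hh0]
    have : lev < (lev / h + 1) * h := by
      have := Nat.lt_div_mul_add (a := lev) (b := h) (by omega)
      nlinarith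
    have h3 : (lev : ℝ) < ((lev / h : ℕ) + 1 : ℝ) * h := by exact_mod_cast this
    linarith
  calc (2 : ℝ) ^ ((lev : ℝ) / h) ≤ (2 : ℝ) ^ (((lev / h : ℕ) : ℝ) + 1) :=
        Real.rpow_le_rpow_of_exponent_le (by norm_num) h2
    _ = 2 * 2 ^ (lev / h) := by
        rw [Real.rpow_add (by norm_num), Real.rpow_natCast, Real.rpow_one]; ring

/-- Total time, the number of reads given as a fraction `1 / 2 ^ (lev / h)` of all `K ^ 2`
cells, `K = M ^ lev`. -/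
theorem time_bound' (M g A h : ℕ) {C0 : ℝ} (hM : 2 ≤ M) (hg : 1 ≤ g) (hh : 1 ≤ h) (hA : A ≤ g)
    (hC0 : 0 ≤ C0) :
    ∃ δ : ℝ, 0 < δ ∧ δ ≤ 1 / 2 ∧ ∃ C : ℝ, 0 < C ∧ ∀ n lev : ℕ,
      (M ^ lev) ^ g ≤ n + 1 → n + 1 ≤ (M ^ (lev + 1)) ^ g → ∀ T : ℝ,
      T ≤ C0 * ((Nat.log 2 n : ℝ) + 2) ^ A *
        (((n : ℝ) + 1) + (((n : ℝ) + 1) ^ 2 / 2 ^ (lev / h) + ((M : ℝ) ^ lev) ^ A)) →
      T ≤ C * ((n : ℝ) + 1) ^ (2 - δ) := by
  have hl2 : 0 < Real.log 2 := Real.log_pos (by norm_num)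
  have hM1 : (1 : ℝ) < M := by exact_mod_cast hM
  have hM2 : (2 : ℝ) ≤ M := by exact_mod_cast hM
  have hlM : 0 < Real.log M := Real.log_pos hM1
  have hh0 : (0 : ℝ) < h := by exact_mod_cast hh
  have hh1 : (1 : ℝ) ≤ h := by exact_mod_cast hh
  have hg0 : (0 : ℝ) < g := by exact_mod_cast hg
  have hg1 : (1 : ℝ) ≤ g := by exact_mod_cast hg
  set c : ℝ := Real.log 2 / (h * Real.log M) with hcdef
  have hc : 0 < c := by positivity
  have hc1 : c ≤ 1 := by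
    rw [hcdef, div_le_one (by positivity)]
    have : Real.log 2 ≤ Real.log M := Real.log_le_log (by norm_num) hM2
    nlinarith
  obtain ⟨C, hC, hmain⟩ := time_bound M g A (c := c) (C0 := 2 * C0) hg hA hc hc1 (by positivity)
  refine ⟨c / (2 * g), by positivity, ?_, C, hC, fun n lev h1 h2 T hT => ?_⟩
  · rw [div_le_div_iff₀ (by positivity) (by norm_num)]
    nlinarith
  have hK : 1 ≤ M ^ lev := Nat.one_le_pow _ _ (by omega)
  have hK0 : (0 : ℝ) < ((M ^ lev : ℕ) : ℝ) := by exact_mod_cast hK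
  refine hmain n (M ^ lev) hK h1 (by rw [pow_succ, Nat.mul_comm] at h2; exact h2) T
    (hT.trans ?_)
  have hgain := gain_ge hM hh lev
  have hN0 : (0 : ℝ) < (n : ℝ) + 1 := by positivity
  have e1 : ((M ^ lev : ℕ) : ℝ) ^ (2 - c) * (((n : ℝ) + 1) / ((M ^ lev : ℕ) : ℝ)) ^ 2 =
      ((n : ℝ) + 1) ^ 2 / ((M ^ lev : ℕ) : ℝ) ^ c := by
    rw [Real.rpow_sub hK0, Real.rpow_two]
    field_simp
  have e2 : ((n : ℝ) + 1) ^ 2 / 2 ^ (lev / h) ≤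
      2 * (((n : ℝ) + 1) ^ 2 / ((M ^ lev : ℕ) : ℝ) ^ c) := by
    rw [← mul_div_assoc, div_le_div_iff₀ (by positivity) (Real.rpow_pos_of_pos hK0 _)]
    calc ((n : ℝ) + 1) ^ 2 * ((M ^ lev : ℕ) : ℝ) ^ c ≤ ((n : ℝ) + 1) ^ 2 * (2 * 2 ^ (lev / h)) :=
          mul_le_mul_of_nonneg_left hgain (by positivity)
      _ = _ := by ring
  rw [e1]
  have e3 : ((M : ℝ) ^ lev) ^ A = ((M ^ lev : ℕ) : ℝ) ^ A := by push_cast; rfl
  have e4 : (0 : ℝ) ≤ ((M ^ lev : ℕ) : ℝ) ^ A := by positivity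
  have e5 : (0 : ℝ) ≤ ((Nat.log 2 n : ℝ) + 2) ^ A := by positivity
  rw [e3]
  calc C0 * ((Nat.log 2 n : ℝ) + 2) ^ A *
        (((n : ℝ) + 1) + (((n : ℝ) + 1) ^ 2 / 2 ^ (lev / h) + ((M ^ lev : ℕ) : ℝ) ^ A))
      ≤ C0 * ((Nat.log 2 n : ℝ) + 2) ^ A *
        (2 * (((n : ℝ) + 1) + (((n : ℝ) + 1) ^ 2 / ((M ^ lev : ℕ) : ℝ) ^ c +
          ((M ^ lev : ℕ) : ℝ) ^ A))) := by
        apply mul_le_mul_of_nonneg_left _ (by positivity)
        linarith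
    _ = _ := by ring

end Vale.Agent.P315.H527
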